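import Crest.Agent.R92.Key

set_option autoImplicit false

namespace Crest.Agent.R92

open Set Real Filter Topology

variable {d : ℕ}

def Pos (x : Fin d → ℝ) : Prop := ∀ i, 0 < x i

def Sol (f : (Fin d → ℝ) → (Fin d → ℝ)) (x : ℝ → Fin d → ℝ) (a b : ℝ) : Prop :=
  ContinuousOn x (Icc a b) ∧ ∀ t ∈ Ico a b, HasDerivWithinAt x (f (x t)) (Ici t) t

lemma Sol.mono {f : (Fin d → ℝ) → (Fin d → ℝ)} {x : ℝ → Fin d → ℝ} {a b a' b' : ℝ}
    (h : Sol f x a b) (ha : a ≤ a') (hb : b' ≤ b) : Sol f x a' b' :=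
  ⟨h.1.mono (Icc_subset_Icc ha hb), fun t ht => h.2 t (Ico_subset_Ico ha hb ht)⟩

structure Good (f : (Fin d → ℝ) → (Fin d → ℝ)) (P : Set (Fin d → ℝ)) (c : Fin d → ℝ)
    (Z : Set (Fin d → ℝ)) : Prop where
  mem : c ∈ Z
  sub : Z ⊆ P
  convex : Convex ℝ Z
  closed : ∃ C, IsClosed C ∧ Z = C ∩ {x | Pos x}
  inv : ∀ x a b, Sol f x a b → (∀ t ∈ Icc a b, Pos (x t)) → x a ∈ Z → ∀ t ∈ Icc a b, x t ∈ Z
  abs : ∀ (x : ℝ → Fin d → ℝ) (η R : ℝ), 0 < η → (∀ b, Sol f x 0 b) →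
    (∀ t, 0 ≤ t → ∀ i, η ≤ x t i ∧ x t i ≤ R) → x 0 ∈ P → ∃ T, 0 ≤ T ∧ x T ∈ Z

lemma continuous_aff (p : (Fin d → ℝ) × ℝ) : Continuous (aff p) := by
  unfold aff
  fun_prop

lemma hasDerivWithinAt_dot {x : ℝ → Fin d → ℝ} {v : Fin d → ℝ} {s : Set ℝ} {t : ℝ}
    (h : HasDerivWithinAt x v s t) (w : Fin d → ℝ) :
    HasDerivWithinAt (fun τ => w ⬝ᵥ x τ) (w ⬝ᵥ v) s t := by
  unfold dotProduct
  apply HasDerivWithinAt.fun_sum
  intro i _
  exact (hasDerivWithinAt_pi.1 h i).const_mul (w i)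

lemma eventually_neg {g : ℝ → ℝ} {g' t : ℝ} (h : HasDerivWithinAt g g' (Ici t) t) (h0 : g t = 0)
    (hneg : g' < 0) : ∀ᶠ s in 𝓝[>] t, g s ≤ 0 := by
  have h1 := (hasDerivWithinAt_iff_tendsto_slope' (s := Ioi t) (by simp)).1
    (h.mono Ioi_subset_Ici_self)
  filter_upwards [h1.eventually (gt_mem_nhds hneg), self_mem_nhdsWithin] with s hs hs'
  rw [slope_def_field, h0, sub_zero] at hs
  have : 0 < s - t := sub_pos.2 hs'
  exact ((div_neg_iff.1 hs).resolve_left (fun h => by linarith [h.2])).1.le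

theorem threshold {f : (Fin d → ℝ) → (Fin d → ℝ)} {x : ℝ → Fin d → ℝ} {a b : ℝ}
    (hx : Sol f x a b) {F : Set ((Fin d → ℝ) × ℝ)} (hF : F.Finite) (B θ : ℝ)
    (h0 : ∀ p ∈ F, aff p (x a) ≤ B)
    (h1 : ∀ t ∈ Ico a b, ∀ p ∈ F, (∀ q ∈ F, aff q (x t) ≤ aff p (x t)) →
      aff p (x t) = B - θ * (t - a) → p.1 ⬝ᵥ f (x t) < -θ) :
    ∀ t ∈ Icc a b, ∀ p ∈ F, aff p (x t) ≤ B - θ * (t - a) := by
  have key : Icc a b ⊆ {t | ∀ p ∈ F, aff p (x t) ≤ B - θ * (t - a)} := by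
    apply IsClosed.Icc_subset_of_forall_mem_nhdsWithin
    · have : {t | ∀ p ∈ F, aff p (x t) ≤ B - θ * (t - a)} ∩ Icc a b =
          Icc a b ∩ ⋂ p ∈ F, (Icc a b ∩ (fun t => aff p (x t) - (B - θ * (t - a))) ⁻¹' Iic 0) := by
        ext t
        simp only [mem_inter_iff, mem_ofPred_eq, mem_iInter, mem_preimage, mem_Iic, sub_nonpos]
        exact ⟨fun h => ⟨h.2, fun i hi => ⟨h.2, h.1 i hi⟩⟩, fun h => ⟨fun i hi => (h.2 i hi).2, h.1⟩⟩
      rw [this]
      apply isClosed_Icc.inter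
      apply isClosed_biInter
      intro p _
      apply ContinuousOn.preimage_isClosed_of_isClosed _ isClosed_Icc isClosed_Iic
      exact ((continuous_aff p).comp_continuousOn hx.1).sub (by fun_prop)
    · simpa using h0
    · rintro t ⟨ht, ht'⟩
      have : ∀ᶠ s in 𝓝[>] t, ∀ p ∈ F, aff p (x s) ≤ B - θ * (s - a) := by
        rw [hF.eventually_all]
        intro p hp
        have hd : HasDerivWithinAt (fun s => aff p (x s) - (B - θ * (s - a)))
            (p.1 ⬝ᵥ f (x t) + θ) (Ici t) t := by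
          have h2 := (hasDerivWithinAt_dot (hx.2 t ht') p.1).sub_const p.2
          have h3 : HasDerivWithinAt (fun s => B - θ * (s - a)) (-θ) (Ici t) t := by
            have := (((hasDerivAt_id t).sub_const a).const_mul θ).const_sub B
            simpa using this.hasDerivWithinAt
          have := h2.fun_sub h3
          rw [sub_neg_eq_add] at this
          exact this
        rcases (ht p hp).eq_or_lt with h | h
        · have h2 := h1 t ht' p hp (fun q hq => by rw [h]; exact ht q hq) h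
          filter_upwards [eventually_neg hd (by rw [h]; simp) (by linarith)] with s hs
          linarith
        · have h2 := hd.continuousWithinAt.mono Ioi_subset_Ici_self
          have h3 := h2.eventually (gt_mem_nhds (show _ < (0 : ℝ) by simpa using h))
          filter_upwards [h3] with s hs
          linarith
      exact this
  exact fun t ht => key ht

lemma isCompact_box (η R : ℝ) : IsCompact {x : Fin d → ℝ | ∀ i, η ≤ x i ∧ x i ≤ R} := by
  have : {x : Fin d → ℝ | ∀ i, η ≤ x i ∧ x i ≤ R} = Icc (fun _ => η) (fun _ => R) := by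
    ext x; simp [Pi.le_def, forall_and]
  rw [this]; exact isCompact_Icc

lemma exists_box {Q : Set (Fin d → ℝ)} (hQ : IsCompact Q) (hpos : ∀ x ∈ Q, Pos x) :
    ∃ η R : ℝ, 0 < η ∧ ∀ x ∈ Q, ∀ i, η ≤ x i ∧ x i ≤ R := by
  obtain ⟨R, hR⟩ := hQ.isBounded.exists_norm_le
  have h1 : ∀ i : Fin d, ∃ η : ℝ, 0 < η ∧ ∀ x ∈ Q, η ≤ x i := by
    intro i
    rcases Q.eq_empty_or_nonempty with h | h
    · exact ⟨1, one_pos, by simp [h]⟩
    · obtain ⟨x, hx, h2⟩ := hQ.exists_isMinOn h (continuous_apply i).continuousOn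
      exact ⟨x i, hpos x hx i, fun y hy => h2 hy⟩
  choose η hη hη' using h1
  obtain ⟨μ, h1, -, h3⟩ := exists_pos_lower (Finset.univ.image η)
  refine ⟨μ, R, h1, fun x hx i => ⟨?_, ?_⟩⟩
  · exact (h3 _ (Finset.mem_image.2 ⟨i, Finset.mem_univ _, rfl⟩) (hη i)).trans (hη' i x hx)
  · exact (le_abs_self _).trans ((norm_le_pi_norm x i).trans (hR x hx))

theorem Good.step {f : (Fin d → ℝ) → (Fin d → ℝ)} (hf : Continuous f) {P : Set (Fin d → ℝ)}
    {c : Fin d → ℝ} {Z : Set (Fin d → ℝ)} (hZ : Good f P c Z) {W : Set ((Fin d → ℝ) × ℝ)}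
    (hW : LocFin W) (lam : ℝ) (hc : ∀ p ∈ W, aff p c ≤ lam)
    (H : ∀ x ∈ Z, ∀ p ∈ W, (∀ q ∈ W, aff q x ≤ aff p x) → lam ≤ aff p x → p.1 ⬝ᵥ f x < 0) :
    Good f P c (Z ∩ {x | ∀ p ∈ W, aff p x ≤ lam}) := by
  have hcl : IsClosed {x | ∀ p ∈ W, aff p x ≤ lam} := by
    simp only [ofPred_forall]
    exact isClosed_biInter fun p _ => isClosed_le (continuous_aff p) continuous_const
  refine ⟨⟨hZ.mem, hc⟩, inter_subset_left.trans hZ.sub, hZ.convex.inter ?_, ?_, ?_, ?_⟩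
  · intro x hx y hy a b ha hb hab p hp
    have h1 := hx p hp
    have h2 := hy p hp
    unfold aff at *
    rw [dotProduct_add, dotProduct_smul, dotProduct_smul, smul_eq_mul, smul_eq_mul]
    have : p.2 + lam = a * (p.2 + lam) + b * (p.2 + lam) := by rw [← add_mul, hab, one_mul]
    nlinarith
  · obtain ⟨C, hC, h⟩ := hZ.closed
    refine ⟨C ∩ _, hC.inter hcl, ?_⟩
    rw [h, inter_right_comm]
  · intro x a b hx hpos hxa t ht
    have hZt := hZ.inv x a b hx hpos hxa.1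
    refine ⟨hZt t ht, ?_⟩
    obtain ⟨η, R, hη, hbox⟩ := exists_box (isCompact_Icc.image_of_continuousOn hx.1)
      (by rintro _ ⟨s, hs, rfl⟩; exact hpos s hs)
    have hF := hW η R lam hη
    have h1 := threshold hx hF lam 0 (fun p hp => hxa.2 p hp.1) (by
      intro s hs p hp hmax heq
      have hs' := Ico_subset_Icc_self hs
      simp only [zero_mul, sub_zero] at heq
      rw [neg_zero]
      apply H _ (hZt s hs') p hp.1 _ heq.ge
      intro q hq
      by_contra hcon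
      push Not at hcon
      exact hcon.not_ge (hmax q ⟨hq, x s, hbox _ ⟨s, hs', rfl⟩, by linarith⟩)) t ht
    intro p hp
    by_contra hcon
    push Not at hcon
    have := h1 p ⟨hp, x t, hbox _ ⟨t, ht, rfl⟩, hcon.le⟩
    simp only [zero_mul, sub_zero] at this
    linarith
  · intro x η R hη hx hbox hx0
    obtain ⟨T0, hT0, hxT0⟩ := hZ.abs x η R hη hx hbox hx0
    have hZt : ∀ t, T0 ≤ t → x t ∈ Z := fun t ht =>
      hZ.inv x T0 t ((hx t).mono hT0 le_rfl)
        (fun s hs i => hη.trans_le (hbox s (hT0.trans hs.1) i).1) hxT0 t ⟨ht, le_rfl⟩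
    have hF := hW η R lam hη
    set F := {p ∈ W | ∃ x : Fin d → ℝ, (∀ i, η ≤ x i ∧ x i ≤ R) ∧ lam ≤ aff p x} with hFdef
    obtain ⟨C, hC, hZC⟩ := hZ.closed
    have h1 : ∀ p ∈ F, ∃ θ : ℝ, 0 < θ ∧ ∀ y ∈ Z, (∀ i, η ≤ y i ∧ y i ≤ R) →
        (∀ q ∈ F, aff q y ≤ aff p y) → lam ≤ aff p y → p.1 ⬝ᵥ f y < -θ := by
      intro p hp
      set M := {y : Fin d → ℝ | ∀ i, η ≤ y i ∧ y i ≤ R} ∩
        (C ∩ ({y | ∀ q ∈ F, aff q y ≤ aff p y} ∩ {y | lam ≤ aff p y})) with hM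
      have hMc : IsCompact M := by
        apply (isCompact_box η R).inter_right
        apply hC.inter
        apply IsClosed.inter
        · simp only [ofPred_forall]
          exact isClosed_biInter fun q _ => isClosed_le (continuous_aff q) (continuous_aff p)
        · exact isClosed_le continuous_const (continuous_aff p)
      rcases M.eq_empty_or_nonempty with h | h
      · refine ⟨1, one_pos, fun y hy hb h2 h3 => ?_⟩
        have : y ∈ M := ⟨hb, (hZC ▸ hy).1, h2, h3⟩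
        rw [h] at this
        exact this.elim
      · obtain ⟨y0, hy0, h2⟩ := hMc.exists_isMaxOn h
          (f := fun y => p.1 ⬝ᵥ f y) (by fun_prop)
        have h3 : p.1 ⬝ᵥ f y0 < 0 := by
          apply H y0 (by rw [hZC]; exact ⟨hy0.2.1, fun i => hη.trans_le (hy0.1 i).1⟩) p hp.1 _
            hy0.2.2.2
          intro q hq
          by_contra hcon
          push Not at hcon
          exact hcon.not_ge (hy0.2.2.1 q ⟨hq, y0, hy0.1, hy0.2.2.2.trans hcon.le⟩)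
        refine ⟨-(p.1 ⬝ᵥ f y0) / 2, by linarith, fun y hy hb h4 h5 => ?_⟩
        have : p.1 ⬝ᵥ f y ≤ p.1 ⬝ᵥ f y0 := h2 (show y ∈ M from ⟨hb, (hZC ▸ hy).1, h4, h5⟩)
        linarith
    choose! θ hθ hθ' using h1
    classical
    obtain ⟨μ, hμ, -, hμ'⟩ := exists_pos_lower (hF.toFinset.image θ)
    have hμ'' : ∀ p ∈ F, μ ≤ θ p := fun p hp =>
      hμ' _ (Finset.mem_image.2 ⟨p, hF.mem_toFinset.2 hp, rfl⟩) (hθ p hp)
    obtain ⟨B, hB⟩ := (hF.image (fun p => aff p (x T0))).bddAbove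
    set T1 := T0 + (max B lam - lam) / μ with hT1
    have hT01 : T0 ≤ T1 := by
      have : 0 ≤ (max B lam - lam) / μ := div_nonneg (by linarith [le_max_right B lam]) hμ.le
      linarith
    have hT1' : max B lam - μ * (T1 - T0) = lam := by rw [hT1]; field_simp; ring
    have h2 := threshold ((hx T1).mono hT0 le_rfl) hF (max B lam) μ
      (fun p hp => (hB ⟨p, hp, rfl⟩).trans (le_max_left _ _)) (by
        intro t ht p hp hmax heq
        have h3 := hθ' p hp (x t) (hZt t ht.1) (hbox t (hT0.trans ht.1)) hmax (by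
          rw [heq]; nlinarith [ht.2])
        linarith [hμ'' p hp]) T1 ⟨hT01, le_rfl⟩
    refine ⟨T1, hT0.trans hT01, hZt T1 hT01, fun p hp => ?_⟩
    by_contra hcon
    push Not at hcon
    have := h2 p ⟨hp, x T1, hbox T1 (hT0.trans hT01), hcon.le⟩
    linarith

/-- a compact good set is invariant for every field that agrees with `f` near it -/
theorem Good.inv' {f g : (Fin d → ℝ) → (Fin d → ℝ)} {P : Set (Fin d → ℝ)}
    {c : Fin d → ℝ} {Z : Set (Fin d → ℝ)} (hZ : Good f P c Z) (hZc : IsClosed Z)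
    {U : Set (Fin d → ℝ)} (hU : IsOpen U) (hZU : Z ⊆ U) (hUp : ∀ y ∈ U, Pos y)
    (hfg : ∀ y ∈ U, g y = f y) {x : ℝ → Fin d → ℝ} {a b : ℝ} (hx : Sol g x a b) (hxa : x a ∈ Z) :
    ∀ t ∈ Icc a b, x t ∈ Z := by
  have key : Icc a b ⊆ x ⁻¹' Z := by
    apply IsClosed.Icc_subset_of_forall_mem_nhdsWithin
    · rw [inter_comm]
      exact hx.1.preimage_isClosed_of_isClosed isClosed_Icc hZc
    · exact hxa
    · rintro t ⟨ht, ht'⟩
      have h1 : ∀ᶠ s in 𝓝[≥] t, x s ∈ U :=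
        (hx.2 t ht').continuousWithinAt.eventually (hU.mem_nhds (hZU ht))
      obtain ⟨t', ht1, ht2⟩ := mem_nhdsGE_iff_exists_Icc_subset.1 h1
      have h2 : Sol f x t (min t' b) := by
        have h3 := hx.mono ht'.1 (min_le_right t' b)
        refine ⟨h3.1, fun s hs => ?_⟩
        rw [← hfg _ (ht2 ⟨hs.1, hs.2.le.trans (min_le_left _ _)⟩)]
        exact h3.2 s hs
      have h3 := hZ.inv x t _ h2 (fun s hs => hUp _ (ht2 ⟨hs.1, hs.2.trans (min_le_left _ _)⟩)) ht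
      exact mem_of_superset (Ioc_mem_nhdsGT (lt_min ht1 ht'.2))
        fun s hs => h3 s (Ioc_subset_Icc_self hs)
  exact fun t ht => key ht

/-- global existence for a bounded Lipschitz field -/
theorem exists_global {g : (Fin d → ℝ) → (Fin d → ℝ)} {K L : NNReal} (hK : LipschitzWith K g)
    (hL : ∀ y, ‖g y‖ ≤ L) (x0 : Fin d → ℝ) :
    ∃ x : ℝ → Fin d → ℝ, x 0 = x0 ∧ ∀ t, 0 ≤ t → HasDerivWithinAt x (g (x t)) (Ici 0) t := by
  have h1 : ∀ n : ℕ, ∃ α : ℝ → Fin d → ℝ, α 0 = x0 ∧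
      ∀ t ∈ Icc (0 : ℝ) n, HasDerivWithinAt α (g (α t)) (Icc 0 n) t := by
    intro n
    have h := IsPicardLindelof.of_time_independent (f := g) (tmin := 0) (tmax := n)
      (t₀ := ⟨0, by simp⟩) (x₀ := x0) (a := L * n) (r := 0) (L := L) (K := K)
      (fun y _ => hL y) hK.lipschitzOnWith (by simp)
    exact h.exists_eq_forall_mem_Icc_hasDerivWithinAt₀
  choose α hα0 hα using h1
  have hsol : ∀ n : ℕ, Sol g (α n) 0 n := fun n =>
    ⟨fun t ht => (hα n t ht).continuousWithinAt, fun t ht =>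
      (hα n t (Ico_subset_Icc_self ht)).mono_of_mem_nhdsWithin
        (mem_of_superset (Icc_mem_nhdsGE ht.2) (Icc_subset_Icc_left ht.1))⟩
  have huniq : ∀ n m : ℕ, ∀ t : ℝ, 0 ≤ t → t ≤ n → t ≤ m → α n t = α m t := by
    intro n m t h0 hn hm
    have h1 := (hsol n).mono le_rfl hn
    have h2 := (hsol m).mono le_rfl hm
    exact ODE_solution_unique_of_mem_Icc_right (v := fun _ => g) (s := fun _ => univ) (K := K)
      (fun _ _ => hK.lipschitzOnWith) h1.1 h1.2 (fun _ _ => mem_univ _) h2.1 h2.2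
      (fun _ _ => mem_univ _) (by rw [hα0, hα0]) ⟨h0, le_rfl⟩
  refine ⟨fun t => α ⌈t⌉₊ t, hα0 _, fun t ht => ?_⟩
  set n := ⌈t⌉₊ + 1 with hn
  have htn : t < n := by rw [hn]; push_cast; linarith [Nat.le_ceil t]
  have h1 : ∀ s ∈ Icc (0 : ℝ) n, α ⌈s⌉₊ s = α n s := fun s hs =>
    huniq _ _ s hs.1 (Nat.le_ceil s) hs.2
  have h2 := (hα n t ⟨ht, htn.le⟩).congr h1 (h1 t ⟨ht, htn.le⟩)
  rw [← h1 t ⟨ht, htn.le⟩] at h2
  apply h2.mono_of_mem_nhdsWithin
  rw [← Ici_inter_Iic]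
  exact inter_mem_nhdsWithin _ (Iic_mem_nhds htn)

end Crest.Agent.R92
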