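import Mathlib
import Crest.Prelude.Def_MassAction

set_option autoImplicit false

namespace Crest.Agent.R92

open Finset Real Crest.AnalysisR.MassAction

/-- a complex as a real vector -/
def cvec {d : ℕ} (y : Fin d → ℕ) : Fin d → ℝ := fun i => (y i : ℝ)

lemma cover_le {d : ℕ} (R : Network d) (φ : (Fin d → ℕ) → ℝ) {a y : Fin d → ℕ}
    (h : Relation.ReflTransGen (fun a b => (a, b) ∈ R) a y) :
    φ a - φ y ≤ ∑ r ∈ R.filter (fun r => φ y < φ r.1), max (φ r.1 - φ r.2) 0 := by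
  have h1 : Set.Ioc (φ y) (φ a) ⊆ ⋃ r ∈ R.filter (fun r => φ y < φ r.1), Set.Ioc (φ r.2) (φ r.1) := by
    induction h using Relation.ReflTransGen.head_induction_on with
    | refl => simp
    | @head a c hac _ ih =>
      intro τ hτ
      by_cases h2 : τ ≤ φ c
      · exact ih ⟨hτ.1, h2⟩
      · simp only [Set.mem_iUnion]
        exact ⟨(a, c), mem_filter.2 ⟨hac, hτ.1.trans_le hτ.2⟩, not_le.1 h2, hτ.2⟩
  have h2 := MeasureTheory.measureReal_mono (μ := MeasureTheory.volume) h1 (by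
    refine ((MeasureTheory.measure_biUnion_finset_le _ _).trans_lt ?_).ne
    exact ENNReal.sum_lt_top.2 fun r _ => by simp)
  have h3 := h2.trans (MeasureTheory.measureReal_biUnion_finset_le _ _)
  simp only [Real.volume_real_Ioc] at h3
  exact (le_max_left _ _).trans h3

theorem flux_neg {d : ℕ} (R : Network d) (hR : IsWeaklyReversible R)
    (k : (Fin d → ℕ) × (Fin d → ℕ) → ℝ) (hk : ∀ r ∈ R, 0 < k r) :
    ∃ δ : ℝ, ∀ x w : Fin d → ℝ, (∀ i, 0 < x i) →
      (∀ r ∈ R, ∀ r' ∈ R, 0 < (cvec r.1 - cvec r'.1) ⬝ᵥ w →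
        δ ≤ (cvec r.1 - cvec r'.1) ⬝ᵥ (fun i => log (x i))) →
      (∃ r ∈ R, w ⬝ᵥ reactionVector r ≠ 0) → w ⬝ᵥ field R k x < 0 := by
  classical
  obtain ⟨kmax, hkmax⟩ := (R.image k).bddAbove
  obtain ⟨kmin, hkmin0, hkmin⟩ : ∃ kmin : ℝ, 0 < kmin ∧ ∀ r ∈ R, kmin ≤ k r := by
    rcases R.eq_empty_or_nonempty with h | h
    · exact ⟨1, one_pos, by simp [h]⟩
    · obtain ⟨r, hr, h2⟩ := R.exists_min_image k h
      exact ⟨k r, hk r hr, h2⟩
  have hkmax' : ∀ r ∈ R, k r ≤ |kmax| := fun r hr =>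
    (hkmax (mem_coe.2 (mem_image.2 ⟨r, hr, rfl⟩))).trans (le_abs_self _)
  set K := R.card * |kmax| + 1 with hK
  have hK0 : 0 < K := by positivity
  refine ⟨log (K / kmin), fun x w hx hsign hne => ?_⟩
  set φ : (Fin d → ℕ) → ℝ := fun y => cvec y ⬝ᵥ w with hφ
  set mon : (Fin d → ℕ) → ℝ := fun y => ∏ i, x i ^ y i with hmon
  have hmon0 : ∀ y, 0 < mon y := fun y => prod_pos fun i _ => pow_pos (hx i) _
  have hmonlog : ∀ y, log (mon y) = cvec y ⬝ᵥ (fun i => log (x i)) := by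
    intro y
    simp only [hmon, dotProduct, cvec]
    rw [log_prod (fun i _ => (pow_pos (hx i) _).ne')]
    simp
  have hrv : ∀ r : (Fin d → ℕ) × (Fin d → ℕ), w ⬝ᵥ reactionVector r = φ r.2 - φ r.1 := by
    intro r
    simp only [hφ, dotProduct, cvec, reactionVector, ← sum_sub_distrib]
    exact sum_congr rfl fun i _ => by ring
  have hfield : w ⬝ᵥ field R k x = ∑ r ∈ R, k r * mon r.1 * (φ r.2 - φ r.1) := by
    unfold field
    rw [dotProduct_sum]
    exact sum_congr rfl fun r _ => by rw [dotProduct_smul, hrv, smul_eq_mul]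
  have hcmp : ∀ r ∈ R, ∀ r' ∈ R, φ r'.1 < φ r.1 → K * mon r'.1 ≤ kmin * mon r.1 := by
    intro r hr r' hr' h
    have h1 := hsign r hr r' hr' (by rw [sub_dotProduct]; exact sub_pos.2 h)
    rw [sub_dotProduct, ← hmonlog, ← hmonlog, ← log_div (hmon0 _).ne' (hmon0 _).ne',
      log_le_log_iff (by positivity) (div_pos (hmon0 _) (hmon0 _)),
      div_le_div_iff₀ hkmin0 (hmon0 _)] at h1
    linarith
  set D := ∑ r ∈ R, mon r.1 * max (φ r.1 - φ r.2) 0 with hD
  have hDnn : ∀ r ∈ R, 0 ≤ mon r.1 * max (φ r.1 - φ r.2) 0 := fun r _ =>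
    mul_nonneg (hmon0 _).le (le_max_right _ _)
  have hup : ∀ r ∈ R, K * (mon r.1 * max (φ r.2 - φ r.1) 0) ≤ kmin * D := by
    intro r hr
    have h1 := cover_le R φ (hR r hr)
    have h2 : max (φ r.2 - φ r.1) 0 ≤
        ∑ r' ∈ R.filter (fun r' => φ r.1 < φ r'.1), max (φ r'.1 - φ r'.2) 0 :=
      max_le h1 (sum_nonneg fun _ _ => le_max_right _ _)
    calc K * (mon r.1 * max (φ r.2 - φ r.1) 0)
        ≤ K * (mon r.1 * ∑ r' ∈ R.filter (fun r' => φ r.1 < φ r'.1), max (φ r'.1 - φ r'.2) 0) := by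
          have := (hmon0 r.1).le
          gcongr
      _ = ∑ r' ∈ R.filter (fun r' => φ r.1 < φ r'.1), K * mon r.1 * max (φ r'.1 - φ r'.2) 0 := by
          rw [← mul_assoc, mul_sum]
      _ ≤ ∑ r' ∈ R.filter (fun r' => φ r.1 < φ r'.1),
            kmin * (mon r'.1 * max (φ r'.1 - φ r'.2) 0) := by
          apply sum_le_sum
          intro r' hr'
          rw [← mul_assoc]
          exact mul_le_mul_of_nonneg_right (hcmp r' (mem_filter.1 hr').1 r hr (mem_filter.1 hr').2)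
            (le_max_right _ _)
      _ ≤ ∑ r' ∈ R, kmin * (mon r'.1 * max (φ r'.1 - φ r'.2) 0) :=
          sum_le_sum_of_subset_of_nonneg (filter_subset _ _)
            fun r' hr' _ => mul_nonneg hkmin0.le (hDnn r' hr')
      _ = kmin * D := by rw [hD, mul_sum]
  have hDpos : 0 < D := by
    obtain ⟨r, hr, h⟩ := hne
    rw [hrv] at h
    rcases lt_or_gt_of_ne h with h | h
    · apply sum_pos' hDnn ⟨r, hr, mul_pos (hmon0 _) (lt_max_of_lt_left (by linarith))⟩
    · have h1 := hup r hr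
      have h2 : 0 < K * (mon r.1 * max (φ r.2 - φ r.1) 0) :=
        mul_pos hK0 (mul_pos (hmon0 _) (lt_max_of_lt_left h))
      by_contra h3
      push Not at h3
      nlinarith
  rw [hfield]
  have h1 : ∀ r ∈ R, K * (k r * mon r.1 * (φ r.2 - φ r.1)) ≤
      |kmax| * (kmin * D) - K * kmin * (mon r.1 * max (φ r.1 - φ r.2) 0) := by
    intro r hr
    have h2 := hup r hr
    have h3 := hkmax' r hr
    have h4 := hkmin r hr
    have h5 := hmon0 r.1
    have h6 := hk r hr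
    rcases le_total (φ r.1) (φ r.2) with h | h
    · rw [max_eq_right (by linarith : φ r.1 - φ r.2 ≤ 0)]
      rw [max_eq_left (by linarith : 0 ≤ φ r.2 - φ r.1)] at h2
      have h7 : 0 ≤ K * (mon r.1 * (φ r.2 - φ r.1)) :=
        mul_nonneg hK0.le (mul_nonneg h5.le (by linarith))
      nlinarith
    · rw [max_eq_left (by linarith : 0 ≤ φ r.1 - φ r.2)]
      have h7 : 0 ≤ K * (mon r.1 * (φ r.1 - φ r.2)) :=
        mul_nonneg hK0.le (mul_nonneg h5.le (by linarith))
      have h8 : 0 ≤ |kmax| * (kmin * D) := by positivity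
      nlinarith
  have h2 := sum_le_sum h1
  rw [← mul_sum, sum_sub_distrib, sum_const, ← mul_sum, ← hD, nsmul_eq_mul] at h2
  have h3 : 0 < kmin * D := mul_pos hkmin0 hDpos
  by_contra h4
  push Not at h4
  have h5 := mul_nonneg hK0.le h4
  rw [hK] at h2 h5
  nlinarith

end Crest.Agent.R92
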