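import Crest.Agent.R92.Variation

set_option autoImplicit false

namespace Crest.Agent.R92

open Finset Real

lemma exists_pos_lower (s : Finset ℝ) : ∃ μ : ℝ, 0 < μ ∧ μ ≤ 1 ∧ ∀ x ∈ s, 0 < x → μ ≤ x := by
  classical
  induction s using Finset.induction_on with
  | empty => exact ⟨1, one_pos, le_rfl, by simp⟩
  | insert a s _ ih =>
    obtain ⟨μ, h1, h2, h3⟩ := ih
    by_cases ha : 0 < a
    · refine ⟨min μ a, lt_min h1 ha, (min_le_left _ _).trans h2, ?_⟩
      intro x hx hx0
      rcases mem_insert.1 hx with rfl | hx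
      · exact min_le_right _ _
      · exact (min_le_left _ _).trans (h3 x hx hx0)
    · refine ⟨μ, h1, h2, ?_⟩
      intro x hx hx0
      rcases mem_insert.1 hx with rfl | hx
      · exact absurd hx0 ha
      · exact h3 x hx hx0

open Classical in
noncomputable def elimSets (d : ℕ) (A0 : Finset (ℕ → ℝ)) : ℕ → Finset (ℕ → ℝ)
  | 0 => A0 ∪ (range d).image tieVec
  | n + 1 => elimSets d A0 n ∪ (elimSets d A0 n ×ˢ elimSets d A0 n).image
      (fun ab => fun q => ab.1 q / ab.1 (d - 1 - n) - ab.2 q / ab.2 (d - 1 - n))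

lemma elimSets_mono (d : ℕ) (A0 : Finset (ℕ → ℝ)) : Monotone (elimSets d A0) := by
  apply monotone_nat_of_le_succ
  intro n
  classical
  simp only [elimSets]
  exact subset_union_left

theorem exists_ladder (d : ℕ) (A0 : Finset (ℕ → ℝ)) (δ : ℝ) :
    ∃ L : Ladder d, A0 ⊆ L.A d ∧ δ ≤ L.m ∧
      ∀ c ∈ A0, 2 * ∑ q ∈ range d, |c q| + 1 ≤ L.μ ^ d * L.Λ := by
  classical
  set A : ℕ → Finset (ℕ → ℝ) := fun p => elimSets d A0 (d - p) with hA
  obtain ⟨μ, hμ1, hμ2, hμ3⟩ := exists_pos_lower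
    ((range d).biUnion fun p => (A (p + 1)).image fun c => |c p|)
  obtain ⟨N, hN⟩ := (A0.image fun c => 2 * ∑ q ∈ range d, |c q| + 1).bddAbove
  have hμd : 0 < μ ^ d := pow_pos hμ1 d
  set Λ : ℝ := max 3 N / μ ^ d with hΛ
  have hΛ' : μ ^ d * Λ = max 3 N := by rw [hΛ]; field_simp
  have h1 := ((Real.tendsto_exp_div_pow_atTop 1).eventually_ge_atTop (10 * d * Λ ^ (2 ^ d))).and
    (Filter.eventually_ge_atTop (max 1 δ))
  obtain ⟨m, hm1, hm2⟩ := h1.exists
  have hm3 : 1 ≤ m := (le_max_left _ _).trans hm2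
  refine ⟨⟨A, μ, Λ, m, ?_, ?_, ?_, hμ1, hμ2, ?_, ?_, hm3, ?_⟩, ?_, (le_max_right _ _).trans hm2, ?_⟩
  · intro p hp c hc _
    exact elimSets_mono d A0 (show d - (p + 1) ≤ d - p by omega) hc
  · intro p hp a ha b hb _ _
    have h2 : d - p = (d - (p + 1)) + 1 := by omega
    have h3 : d - 1 - (d - (p + 1)) = p := by omega
    simp only [hA]
    rw [h2]
    simp only [elimSets]
    apply mem_union_right
    rw [h3]
    exact mem_image.2 ⟨(a, b), mem_product.2 ⟨ha, hb⟩, rfl⟩
  · intro p hp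
    apply elimSets_mono d A0 (Nat.zero_le _)
    simp only [elimSets]
    exact mem_union_right _ (mem_image.2 ⟨p, mem_range.2 (by omega), rfl⟩)
  · intro p hp c hc h0
    apply hμ3 _ _ (abs_pos.2 h0)
    exact mem_biUnion.2 ⟨p, mem_range.2 hp, mem_image.2 ⟨c, hc, rfl⟩⟩
  · rw [hΛ']; exact le_max_left _ _
  · rw [pow_one, le_div_iff₀ (by linarith)] at hm1
    linarith
  · intro c hc
    simp only [hA, Nat.sub_self, elimSets]
    exact mem_union_left _ hc
  · intro c hc
    simp only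
    rw [hΛ']
    exact (hN (mem_coe.2 (mem_image.2 ⟨c, hc, rfl⟩))).trans (le_max_right _ _)

namespace Ladder
variable {d : ℕ} (L : Ladder d)

lemma Allowed_congr {u v : ℕ → ℝ} (h : ∀ q < d, u q = v q) (hu : L.Allowed u) : L.Allowed v := by
  constructor
  · intro p hp
    rw [← L.Ok_congr (u := u) (fun q hq => h q (by omega)), ← h p hp]
    exact hu.1 p hp
  · intro i j hij hj
    rw [← h i (by omega), ← h j hj]
    exact hu.2 i j hij hj

lemma cost_congr {u v : ℕ → ℝ} (h : ∀ q < d, u q = v q) : L.cost u = L.cost v :=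
  sum_congr rfl fun p hp => L.ψ_congr fun q hq => h q (by have := mem_range.1 hp; omega)

lemma const_allowed {t : ℝ} (ht : L.Ok 0 0 t) : L.Allowed (fun _ => t) := by
  have := L.tail_allowed (p := 0) (u := 0) (t := t) (by simp) (by simp) ht (by simp)
  exact L.Allowed_congr (fun q _ => tail_ge (Nat.zero_le q)) this

lemma cost_const_le (t : ℝ) : L.cost (fun _ => t) ≤ d * exp t := by
  have h2 : L.cost (fun _ => t) ≤ (range d).card • exp t :=
    sum_le_card_nsmul _ _ _ fun q _ => L.ψ_le q _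
  rwa [card_range, nsmul_eq_mul] at h2

end Ladder

/-- value of an affine function -/
noncomputable def aff {ι : Type*} [Fintype ι] (p : (ι → ℝ) × ℝ) (x : ι → ℝ) : ℝ := p.1 ⬝ᵥ x - p.2

/-- local finiteness of a family of affine functions on the open orthant -/
def LocFin {ι : Type*} [Fintype ι] (W : Set ((ι → ℝ) × ℝ)) : Prop :=
  ∀ η R lam : ℝ, 0 < η → {p ∈ W | ∃ x : ι → ℝ, (∀ i, η ≤ x i ∧ x i ≤ R) ∧ lam ≤ aff p x}.Finite

section lift
variable {ι : Type*} {d : ℕ}

noncomputable def lift (ρ : Fin d ≃ ι) (y : ι → ℝ) : ℕ → ℝ :=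
  fun q => if h : q < d then y (ρ ⟨q, h⟩) else 0

lemma lift_val (ρ : Fin d ≃ ι) (y : ι → ℝ) (q : Fin d) : lift ρ y q = y (ρ q) := by
  simp [lift]

lemma lift_lt (ρ : Fin d ≃ ι) (y : ι → ℝ) {q : ℕ} (h : q < d) : lift ρ y q = y (ρ ⟨q, h⟩) :=
  dif_pos h

lemma dot_lift [Fintype ι] (ρ : Fin d ≃ ι) (a y : ι → ℝ) :
    dot d (lift ρ a) (lift ρ y) = a ⬝ᵥ y := by
  unfold dot dotProduct
  rw [← Fin.sum_univ_eq_sum_range (fun q => lift ρ a q * lift ρ y q) d]
  simp only [lift_val]
  exact Equiv.sum_comp ρ (fun i => a i * y i)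

lemma lift_injective (ρ : Fin d ≃ ι) : Function.Injective (lift ρ) := by
  intro y y' h
  funext i
  have := congrFun h (ρ.symm i)
  simpa [lift_val] using this

end lift

theorem key {ι : Type*} [Fintype ι] [Nonempty ι] (A : Finset (ι → ℝ)) (δ : ℝ) :
    ∃ (W : Set ((ι → ℝ) × ℝ)) (C : ℝ), LocFin W ∧ (∀ p ∈ W, 0 < p.2) ∧
      (∀ T : ℝ, ∃ t ψ : ℝ, T ≤ t ∧ (fun _ => t, ψ) ∈ W) ∧
      (∀ T : ℝ, ∃ t ψ : ℝ, t ≤ T ∧ ψ ≤ Fintype.card ι * exp t ∧ (fun _ => t, ψ) ∈ W) ∧
      ∀ x : ι → ℝ, (∀ i, 0 < x i) → ∀ p ∈ W, (∀ q ∈ W, aff q x ≤ aff p x) →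
        (∀ i, p.1 i ≤ log (x i) + C) ∧
          ∀ a ∈ A, 0 < a ⬝ᵥ p.1 → δ ≤ a ⬝ᵥ (fun i => log (x i)) := by
  classical
  set d := Fintype.card ι with hd
  have hd0 : 0 < d := Fintype.card_pos
  obtain ⟨L, hA, hδ, hN⟩ := exists_ladder d
    (((univ : Finset (Fin d ≃ ι)) ×ˢ A).image fun ρa => lift ρa.1 ρa.2) δ
  set W : Set ((ι → ℝ) × ℝ) :=
    {p | ∃ ρ : Fin d ≃ ι, L.Allowed (lift ρ p.1) ∧ p.2 = L.cost (lift ρ p.1)} with hW
  set C := 2 * (L.m * L.Λ ^ (2 ^ d)) with hC
  have hC0 : 0 < L.m * L.Λ ^ (2 ^ d) := mul_pos L.m_pos (pow_pos (by linarith [L.one_le_Λ]) _)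
  have hcoer : ∀ p ∈ W, ∀ i, exp (p.1 i - C) ≤ p.2 := by
    rintro p ⟨ρ, hp, h2⟩ i
    rw [h2]
    have h3 := L.le_ψ (ρ.symm i) (lift ρ p.1)
    have h4 := L.r_le (ρ.symm i) (ρ.symm i).2 (lift ρ p.1)
    rw [lift_val, Equiv.apply_symm_apply] at h3
    have h5 : L.ψ (ρ.symm i) (lift ρ p.1) ≤ L.cost (lift ρ p.1) :=
      single_le_sum (f := fun q => L.ψ q (lift ρ p.1)) (fun q _ => (L.ψ_pos q _).le)
        (mem_range.2 (ρ.symm i).2)
    exact (exp_le_exp.2 (by linarith)).trans (h3.trans h5)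
  have hfin : ∀ M : ℝ, {p ∈ W | ∀ i, |p.1 i| ≤ M}.Finite := by
    intro M
    have h1 := L.finite_heads M d le_rfl
    have h2 := Set.finite_iUnion (ι := Fin d ≃ ι)
      (f := fun ρ => (fun w => (w, L.cost (lift ρ w))) '' (lift ρ ⁻¹' _))
      (fun ρ => (h1.preimage (lift_injective ρ).injOn).image _)
    apply h2.subset
    rintro p ⟨⟨ρ, hp, h3⟩, hM⟩
    simp only [Set.mem_iUnion]
    refine ⟨ρ, p.1, ⟨lift ρ p.1, hp, ?_, ?_⟩, ?_⟩
    · intro q hq; rw [lift_lt ρ _ hq]; exact hM _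
    · funext q
      unfold Ladder.tail
      split_ifs with h
      · rfl
      · exact dif_neg h
    · exact Prod.ext rfl h3.symm
  have hconst : ∀ t, L.Ok 0 0 t → (fun _ => t, L.cost (fun _ => t)) ∈ W := by
    intro t ht
    have ρ : Fin d ≃ ι := (Fintype.equivFin ι).symm
    have h1 : ∀ q < d, (fun _ => t) q = lift ρ (fun _ => t) q := fun q hq => by rw [lift_lt ρ _ hq]
    exact ⟨ρ, L.Allowed_congr h1 (L.const_allowed ht), L.cost_congr h1⟩
  refine ⟨W, C, ?_, fun p hp => (exp_pos _).trans_le (hcoer p hp (Classical.arbitrary ι)),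
    ?_, ?_, ?_⟩
  · intro η R lam hη
    -- upper bound for the coordinates
    have h1 : ∃ T0 : ℝ, 0 ≤ T0 ∧ ∀ T, T0 ≤ T → d * (|R| * T) - exp (T - C) < lam := by
      have h2 := ((Real.tendsto_exp_div_pow_atTop 1).eventually_ge_atTop
        (exp C * (d * |R| + |lam| + 1))).and (Filter.eventually_ge_atTop 1)
      obtain ⟨T0, hT0⟩ := Filter.eventually_atTop.1 h2
      refine ⟨max T0 0, le_max_right _ _, fun T hT => ?_⟩
      obtain ⟨h3, h4⟩ := hT0 T ((le_max_left _ _).trans hT)
      rw [pow_one, le_div_iff₀ (by linarith)] at h3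
      have h5 : (d * |R| + |lam| + 1) * T ≤ exp (T - C) := by
        rw [exp_sub, le_div_iff₀ (exp_pos _)]; linarith
      have h6 := neg_abs_le lam
      have h7 := abs_nonneg lam
      nlinarith
    obtain ⟨T0, hT0, hT⟩ := h1
    apply (hfin (max T0 ((d * (|R| * T0) - lam) / η))).subset
    rintro p ⟨hp, x, hx, hlam⟩
    refine ⟨hp, ?_⟩
    have hsum : ∀ T, 0 ≤ T → (∀ i, p.1 i ≤ T) → ∀ i, p.1 i * x i ≤ |R| * T := by
      intro T hT0 h i
      have h1 := (hx i).1
      have h2 := (hx i).2.trans (le_abs_self R)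
      have h3 := h i
      nlinarith
    have hup : ∀ i, p.1 i ≤ T0 := by
      obtain ⟨j, hj⟩ := Finite.exists_max p.1
      by_contra hcon
      push Not at hcon
      obtain ⟨i, hi⟩ := hcon
      have h1 : T0 ≤ p.1 j := hi.le.trans (hj i)
      have h2 := hT _ h1
      have h3 : p.1 ⬝ᵥ x ≤ (univ : Finset ι).card • (|R| * p.1 j) :=
        sum_le_card_nsmul _ _ _ fun i _ => hsum _ (hT0.trans h1) hj i
      rw [card_univ, nsmul_eq_mul, ← hd] at h3
      have h4 := hcoer p hp j
      unfold aff at hlam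
      linarith
    intro j
    rw [abs_le]
    refine ⟨?_, (hup j).trans (le_max_left _ _)⟩
    have h1 : p.1 ⬝ᵥ x ≤ p.1 j * x j + d * (|R| * T0) := by
      unfold dotProduct
      rw [← add_sum_erase _ _ (mem_univ j)]
      have h3 : ∑ i ∈ univ.erase j, p.1 i * x i ≤ (univ.erase j).card • (|R| * T0) :=
        sum_le_card_nsmul _ _ _ fun i _ => hsum _ hT0 hup i
      rw [nsmul_eq_mul] at h3
      have h4 : ((univ.erase j).card : ℝ) ≤ d := by
        rw [hd, ← card_univ]; exact_mod_cast card_erase_le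
      have h5 : 0 ≤ |R| * T0 := by positivity
      nlinarith
    by_cases hj : 0 ≤ p.1 j
    · have := le_max_left T0 ((d * (|R| * T0) - lam) / η)
      linarith
    · push Not at hj
      have h2 := (exp_pos _).trans_le (hcoer p hp j)
      have h3 := (hx j).1
      unfold aff at hlam
      have h4 : - p.1 j ≤ (d * (|R| * T0) - lam) / η := by
        rw [le_div_iff₀ hη]; nlinarith
      have := le_max_right T0 ((d * (|R| * T0) - lam) / η)
      linarith
  · intro T
    obtain ⟨t, ht, -, h2⟩ := L.exists_ok_near 0 0 (T + 2 * L.r 0 0 + 1)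
    exact ⟨t, _, by linarith, hconst t ht⟩
  · intro T
    obtain ⟨t, ht, h1, -⟩ := L.exists_ok_near 0 0 T
    exact ⟨t, _, h1, L.cost_const_le t, hconst t ht⟩
  · rintro x hx ⟨w, ψ⟩ ⟨ρ, hp, hψ⟩ hmax
    simp only at hp hψ
    -- all competitors
    have hcomp : ∀ (σ : Fin d ≃ ι) (v : ℕ → ℝ), L.Allowed v →
        dot d v (lift σ x) - L.cost v ≤ w ⬝ᵥ x - ψ := by
      intro σ v hv
      have h1 : ∀ q < d, v q = lift σ (fun i => v (σ.symm i)) q := fun q hq => by
        rw [lift_lt σ _ hq]; simp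
      have h2 := hmax (fun i => v (σ.symm i), L.cost v) ⟨σ, L.Allowed_congr h1 hv, L.cost_congr h1⟩
      unfold aff at h2
      simp only at h2
      rw [← dot_lift σ] at h2
      have h3 : dot d v (lift σ x) = dot d (lift σ fun i => v (σ.symm i)) (lift σ x) :=
        sum_congr rfl fun q hq => by rw [← h1 q (mem_range.1 hq)]
      rw [h3]; exact h2
    have hwa : Antitone (fun q : Fin d => w (ρ q)) := by
      intro i j hij
      have := hp.2 i j hij j.2
      rwa [lift_val, lift_val] at this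
    -- monovariance
    have hmono : Monovary (fun q : Fin d => w (ρ q)) (fun q : Fin d => x (ρ q)) := by
      set σ := Tuple.sort (fun q : Fin d => - x (ρ q)) with hσ
      have h1 : Antitone (fun q : Fin d => x (ρ (σ q))) := by
        intro i j hij
        have := Tuple.monotone_sort (fun q : Fin d => - x (ρ q)) hij
        simpa using this
      have h2 := hwa.monovary h1
      have h3 := (h2.sum_mul_comp_perm_eq_sum_mul_iff (σ := σ.symm)).1 ?_
      · intro i j hij
        apply h3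
        simpa using hij
      · apply le_antisymm (h2.sum_mul_comp_perm_le_sum_mul (σ := σ.symm))
        have h4 := hcomp (σ.trans ρ) (lift ρ w) hp
        rw [← hψ, ← dot_lift ρ] at h4
        unfold dot at h4
        rw [← Fin.sum_univ_eq_sum_range (fun q => lift ρ w q * lift (σ.trans ρ) x q) d,
          ← Fin.sum_univ_eq_sum_range (fun q => lift ρ w q * lift ρ x q) d] at h4
        simp only [lift_val, Equiv.trans_apply] at h4
        simp only [Equiv.apply_symm_apply]
        linarith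
    set τ := Tuple.sort (fun q : Fin d => toLex (- w (ρ q), - x (ρ q))) with hτ
    have hτm := Tuple.monotone_sort (fun q : Fin d => toLex (- w (ρ q), - x (ρ q)))
    have hτ1 : Antitone ((fun q : Fin d => w (ρ q)) ∘ τ) := by
      intro i j hij
      have := hτm hij
      simp only [Function.comp, Prod.Lex.toLex_le_toLex] at this
      simp only [Function.comp]
      rcases this with h | h
      · linarith
      · linarith [h.1]
    have hτ2 : Antitone (fun q : Fin d => x (ρ (τ q))) := by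
      intro i j hij
      have := hτm hij
      simp only [Function.comp, Prod.Lex.toLex_le_toLex] at this
      rcases this with h | h
      · by_contra hcon
        push Not at hcon
        have := hmono hcon
        simp only at this
        linarith
      · linarith [h.2]
    have hτ3 : (fun q : Fin d => w (ρ q)) ∘ τ = (fun q : Fin d => w (ρ q)) := by
      have := Tuple.unique_antitone (σ := τ) (τ := Equiv.refl _) hτ1 (by simpa using hwa)
      simpa using this
    set ρ' := τ.trans ρ with hρ'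
    have hl : lift ρ' w = lift ρ w := by
      funext q
      unfold lift
      split_ifs with h
      · exact congrFun hτ3 ⟨q, h⟩
      · rfl
    have hu : L.Allowed (lift ρ' w) := hl ▸ hp
    have hξ : ∀ q < d, 0 < lift ρ' x q := fun q hq => by rw [lift_lt _ _ hq]; exact hx _
    have hξa : ∀ i j, i ≤ j → j < d → lift ρ' x j ≤ lift ρ' x i := by
      intro i j hij hj
      rw [lift_lt _ _ hj, lift_lt _ _ (show i < d by omega)]
      exact hτ2 (show (⟨i, by omega⟩ : Fin d) ≤ ⟨j, hj⟩ from hij)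
    have hm : ∀ v, L.Allowed v → dot d v (lift ρ' x) - L.cost v ≤
        dot d (lift ρ' w) (lift ρ' x) - L.cost (lift ρ' w) := by
      intro v hv
      rw [dot_lift, hl, ← hψ]
      exact hcomp ρ' v hv
    constructor
    · intro i
      have h1 := L.error_le' hu hξ hξa hm (ρ'.symm i) (ρ'.symm i).2
      rw [lift_val, lift_val, Equiv.apply_symm_apply] at h1
      have h2 := L.e_le (lift ρ' w) d le_rfl
      have h3 : L.Λ ^ (L.e d (lift ρ' w)) ≤ L.Λ ^ (2 ^ d) :=
        pow_le_pow_right₀ L.one_le_Λ ((Nat.le_add_right _ _).trans h2)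
      have h4 := (abs_le.1 h1).1
      have h5 := L.m_pos
      simp only
      nlinarith
    · intro a ha hpos
      have hmem : lift ρ' a ∈ ((univ : Finset (Fin d ≃ ι)) ×ˢ A).image
          fun ρa => lift ρa.1 ρa.2 :=
        mem_image.2 ⟨(ρ', a), mem_product.2 ⟨mem_univ _, ha⟩, rfl⟩
      have h1 := L.sign hu hξ hξa hm (hA hmem) (hN _ hmem) (by rw [dot_lift]; exact hpos)
      have h2 : dot d (lift ρ' a) (fun q => log (lift ρ' x q)) =
          dot d (lift ρ' a) (lift ρ' fun i => log (x i)) :=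
        Ladder.dot_congr fun q hq => by rw [lift_lt _ _ hq, lift_lt _ _ hq]
      rw [h2, dot_lift] at h1
      exact hδ.trans h1

end Crest.Agent.R92
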