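import Mathlib

/-!
A hierarchical family of "snapped" decreasing vectors with costs.  The maximiser of
`⟨u, ξ⟩ - cost u` over the family is close to `log ξ` and has sign patterns (with respect to a
given finite set of vectors) that are robustly shared by `log ξ`.
-/

set_option autoImplicit false

namespace Crest.Agent.R92

open Finset Real

/-- partial dot product -/
noncomputable def dot (p : ℕ) (c u : ℕ → ℝ) : ℝ := ∑ q ∈ range p, c q * u q

/-- the vector `e_{p+1} - e_p` -/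
noncomputable def tieVec (p : ℕ) : ℕ → ℝ := fun q => if q = p + 1 then 1 else if q = p then -1 else 0

structure Ladder (d : ℕ) where
  A : ℕ → Finset (ℕ → ℝ)
  μ : ℝ
  Λ : ℝ
  m : ℝ
  keep : ∀ p < d, ∀ c ∈ A (p + 1), c p = 0 → c ∈ A p
  elim : ∀ p < d, ∀ a ∈ A (p + 1), ∀ b ∈ A (p + 1), a p ≠ 0 → b p ≠ 0 →
    (fun q => a q / a p - b q / b p) ∈ A p
  tie : ∀ p, p + 1 < d → tieVec p ∈ A (p + 2)
  μ_pos : 0 < μ
  μ_le_one : μ ≤ 1
  μ_le : ∀ p < d, ∀ c ∈ A (p + 1), c p ≠ 0 → μ ≤ |c p|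
  three_le : 3 ≤ μ ^ d * Λ
  one_le_m : 1 ≤ m
  big : 10 * d * (m * Λ ^ (2 ^ d)) ≤ exp m

namespace Ladder

variable {d : ℕ} (L : Ladder d)

open Classical in
/-- snap values at level `p` -/
noncomputable def S (p : ℕ) (u : ℕ → ℝ) : Finset ℝ :=
  ((L.A (p + 1)).filter (fun a => a p ≠ 0)).image (fun a => -(dot p a u) / a p)

open Classical in
noncomputable def e : ℕ → (ℕ → ℝ) → ℕ
  | 0, _ => 0
  | p + 1, u => e p u + if u p ∈ L.S p u then 2 ^ (d - 1 - p) else 0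

noncomputable def r (p : ℕ) (u : ℕ → ℝ) : ℝ := L.m * L.Λ ^ (L.e p u + 2 ^ (d - 1 - p))

/-- `t` is an allowed value at level `p` for the head of `u` -/
def Ok (p : ℕ) (u : ℕ → ℝ) (t : ℝ) : Prop :=
  t ∈ L.S p u ∨ ((∃ n : ℤ, t = n) ∧ ∀ s ∈ L.S p u, L.r p u ≤ |t - s|)

def Allowed (u : ℕ → ℝ) : Prop :=
  (∀ p < d, L.Ok p u (u p)) ∧ ∀ i j, i ≤ j → j < d → u j ≤ u i

open Classical in
noncomputable def ψ (p : ℕ) (u : ℕ → ℝ) : ℝ :=
  exp (u p - if u p ∈ L.S p u then L.r p u else 0)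

noncomputable def cost (u : ℕ → ℝ) : ℝ := ∑ p ∈ range d, L.ψ p u

lemma one_le_Λ : 1 ≤ L.Λ := by
  have h1 := L.three_le
  have h2 : L.μ ^ d ≤ 1 := pow_le_one₀ L.μ_pos.le L.μ_le_one
  have h3 : 0 < L.μ ^ d := pow_pos L.μ_pos d
  by_contra h
  push Not at h
  nlinarith

lemma dot_congr {p : ℕ} {c u v : ℕ → ℝ} (h : ∀ q < p, u q = v q) : dot p c u = dot p c v :=
  Finset.sum_congr rfl fun q hq => by rw [h q (mem_range.1 hq)]

lemma S_congr {p : ℕ} {u v : ℕ → ℝ} (h : ∀ q < p, u q = v q) : L.S p u = L.S p v := by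
  unfold S
  congr 1
  funext a
  rw [dot_congr h]

lemma e_congr {p : ℕ} {u v : ℕ → ℝ} (h : ∀ q < p, u q = v q) : L.e p u = L.e p v := by
  induction p with
  | zero => rfl
  | succ p ih =>
    have h' : ∀ q < p, u q = v q := fun q hq => h q (by omega)
    simp only [e]
    rw [ih h', L.S_congr h', h p (by omega)]

lemma r_congr {p : ℕ} {u v : ℕ → ℝ} (h : ∀ q < p, u q = v q) : L.r p u = L.r p v := by
  unfold r; rw [L.e_congr h]

lemma Ok_congr {p : ℕ} {u v : ℕ → ℝ} (h : ∀ q < p, u q = v q) (t : ℝ) :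
    L.Ok p u t ↔ L.Ok p v t := by
  unfold Ok; rw [L.S_congr h, L.r_congr h]

lemma ψ_congr {p : ℕ} {u v : ℕ → ℝ} (h : ∀ q < p + 1, u q = v q) : L.ψ p u = L.ψ p v := by
  have h' : ∀ q < p, u q = v q := fun q hq => h q (by omega)
  unfold ψ; rw [L.S_congr h', L.r_congr h', h p (by omega)]

lemma e_succ_of_mem {p : ℕ} {u : ℕ → ℝ} (h : u p ∈ L.S p u) :
    L.e (p + 1) u = L.e p u + 2 ^ (d - 1 - p) := by
  simp only [e]; rw [if_pos h]

lemma e_succ_of_not_mem {p : ℕ} {u : ℕ → ℝ} (h : u p ∉ L.S p u) :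
    L.e (p + 1) u = L.e p u := by
  simp only [e]; rw [if_neg h, add_zero]

lemma e_mono (u : ℕ → ℝ) : Monotone (fun p => L.e p u) := by
  apply monotone_nat_of_le_succ
  intro p
  simp only [e]
  omega

lemma e_le (u : ℕ → ℝ) : ∀ p ≤ d, L.e p u + 2 ^ (d - p) ≤ 2 ^ d := by
  intro p
  induction p with
  | zero => intro _; simp [e]
  | succ p ih =>
    intro hp
    have h1 := ih (by omega)
    have h2 : d - p = (d - 1 - p) + 1 := by omega
    have h3 : d - (p + 1) = d - 1 - p := by omega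
    rw [h2, pow_succ] at h1
    rw [h3]
    simp only [e]
    split_ifs <;> omega

lemma m_pos : 0 < L.m := lt_of_lt_of_le one_pos L.one_le_m

lemma m_le_r (p : ℕ) (u : ℕ → ℝ) : L.m ≤ L.r p u := by
  unfold r
  have := one_le_pow₀ (n := L.e p u + 2 ^ (d - 1 - p)) L.one_le_Λ
  nlinarith [L.m_pos]

lemma one_le_r (p : ℕ) (u : ℕ → ℝ) : 1 ≤ L.r p u := L.one_le_m.trans (L.m_le_r p u)

lemma r_le (p : ℕ) (hp : p < d) (u : ℕ → ℝ) : L.r p u ≤ L.m * L.Λ ^ (2 ^ d) := by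
  unfold r
  have h1 := L.e_le u p hp.le
  have h2 : 2 ^ (d - 1 - p) ≤ 2 ^ (d - p) := Nat.pow_le_pow_right (by norm_num) (by omega)
  have := pow_le_pow_right₀ L.one_le_Λ (show L.e p u + 2 ^ (d - 1 - p) ≤ 2 ^ d by omega)
  exact mul_le_mul_of_nonneg_left this L.m_pos.le

lemma ψ_pos (p : ℕ) (u : ℕ → ℝ) : 0 < L.ψ p u := exp_pos _

lemma ψ_le (p : ℕ) (u : ℕ → ℝ) : L.ψ p u ≤ exp (u p) := by
  unfold ψ
  apply exp_le_exp.2
  have := L.one_le_r p u
  split_ifs <;> linarith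

lemma le_ψ (p : ℕ) (u : ℕ → ℝ) : exp (u p - L.r p u) ≤ L.ψ p u := by
  unfold ψ
  apply exp_le_exp.2
  have := L.one_le_r p u
  split_ifs <;> linarith

lemma mem_S {p : ℕ} {u : ℕ → ℝ} {s : ℝ} :
    s ∈ L.S p u ↔ ∃ a ∈ L.A (p + 1), a p ≠ 0 ∧ s = -(dot p a u) / a p := by
  unfold S
  simp only [mem_image, mem_filter]
  constructor
  · rintro ⟨a, ⟨h1, h2⟩, rfl⟩; exact ⟨a, h1, h2, rfl⟩
  · rintro ⟨a, h1, h2, rfl⟩; exact ⟨a, ⟨h1, h2⟩, rfl⟩

lemma tie_mem {p : ℕ} (hp : p + 1 < d) (u : ℕ → ℝ) : u p ∈ L.S (p + 1) u := by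
  rw [mem_S]
  refine ⟨tieVec p, L.tie p hp, by simp [tieVec], ?_⟩
  have : dot (p + 1) (tieVec p) u = - u p := by
    unfold dot
    rw [sum_range_succ, sum_eq_zero]
    · simp [tieVec]
    · intro q hq
      have := mem_range.1 hq
      have h1 : q ≠ p + 1 := by omega
      have h2 : q ≠ p := by omega
      simp [tieVec, h1, h2]
  rw [this]; simp [tieVec]

/-- the gap -/
noncomputable def G (p : ℕ) (u : ℕ → ℝ) : ℝ := L.μ ^ p * (L.m * L.Λ ^ (L.e p u + 2 ^ (d - p)))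

lemma snap_sep_of {p : ℕ} (hp : p < d) {u : ℕ → ℝ}
    (h : ∀ c ∈ L.A p, dot p c u = 0 ∨ L.G p u ≤ |dot p c u|) {s s' : ℝ}
    (hs : s ∈ L.S p u) (hs' : s' ∈ L.S p u) : s = s' ∨ L.G p u ≤ |s - s'| := by
  obtain ⟨a, ha, ha0, rfl⟩ := L.mem_S.1 hs
  obtain ⟨b, hb, hb0, rfl⟩ := L.mem_S.1 hs'
  have h1 := h _ (L.elim p hp b hb a ha hb0 ha0)
  have h2 : dot p (fun q => b q / b p - a q / a p) u = -(dot p a u) / a p - -(dot p b u) / b p := by
    unfold dot
    rw [neg_div, neg_div, sum_div, sum_div, sub_neg_eq_add, neg_add_eq_sub, ← sum_sub_distrib]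
    apply sum_congr rfl
    intro q _
    ring
  rw [h2] at h1
  rcases h1 with h1 | h1
  · left; linarith
  · right; exact h1

lemma gap {u : ℕ → ℝ} (hu : L.Allowed u) :
    ∀ p ≤ d, ∀ c ∈ L.A p, dot p c u = 0 ∨ L.G p u ≤ |dot p c u| := by
  intro p
  induction p with
  | zero => intro _ c _; left; simp [dot]
  | succ p ih =>
    intro hp c hc
    have hp' : p < d := by omega
    have ih' := ih hp'.le
    have hΛ := L.one_le_Λ
    have hm := L.m_pos
    have hμ := L.μ_pos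
    have h2 : d - p = (d - 1 - p) + 1 := by omega
    have h3 : d - (p + 1) = d - 1 - p := by omega
    have hGle : L.G (p + 1) u ≤ L.μ * L.G p u := by
      unfold G
      rw [pow_succ, h3]
      have : L.e (p + 1) u + 2 ^ (d - 1 - p) ≤ L.e p u + 2 ^ (d - p) := by
        rw [h2, pow_succ]
        simp only [e]
        split_ifs <;> omega
      have h4 := pow_le_pow_right₀ hΛ this
      have h5 : 0 < L.μ ^ p := pow_pos hμ p
      calc L.μ ^ p * L.μ * (L.m * L.Λ ^ (L.e (p + 1) u + 2 ^ (d - 1 - p)))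
          ≤ L.μ ^ p * L.μ * (L.m * L.Λ ^ (L.e p u + 2 ^ (d - p))) := by gcongr
        _ = _ := by ring
    have hG0 : 0 ≤ L.G p u := by unfold G; positivity
    have hGle' : L.G (p + 1) u ≤ L.G p u := hGle.trans (by nlinarith [L.μ_le_one])
    by_cases hc0 : c p = 0
    · have h4 : dot (p + 1) c u = dot p c u := by unfold dot; rw [sum_range_succ, hc0]; simp
      rw [h4]
      rcases ih' c (L.keep p hp' c hc hc0) with h | h
      · left; exact h
      · right; exact hGle'.trans h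
    · have h4 : dot (p + 1) c u = c p * (u p - -(dot p c u) / c p) := by
        unfold dot; rw [sum_range_succ]; field_simp; ring
      have h5 : -(dot p c u) / c p ∈ L.S p u := L.mem_S.2 ⟨c, hc, hc0, rfl⟩
      have h6 := L.μ_le p hp' c hc hc0
      rw [h4, abs_mul]
      by_cases hact : u p ∈ L.S p u
      · rcases L.snap_sep_of hp' ih' hact h5 with h | h
        · left; rw [← h]; simp
        · right
          exact hGle.trans (mul_le_mul h6 h hG0 (abs_nonneg _))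
      · right
        rcases hu.1 p hp' with h | h
        · exact absurd h hact
        · have h7 := h.2 _ h5
          have h8 : L.G (p + 1) u ≤ L.μ * L.r p u := by
            unfold G r
            rw [L.e_succ_of_not_mem hact, h3, pow_succ]
            have h9 : L.μ ^ p ≤ 1 := pow_le_one₀ hμ.le L.μ_le_one
            have : 0 ≤ L.μ * (L.m * L.Λ ^ (L.e p u + 2 ^ (d - 1 - p))) := by positivity
            nlinarith
          exact h8.trans (mul_le_mul h6 h7 (by linarith [L.one_le_r p u]) (abs_nonneg _))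

lemma three_r_le_G {p : ℕ} (hp : p < d) (u : ℕ → ℝ) : 3 * L.r p u ≤ L.G p u := by
  unfold G r
  have h2 : d - p = (d - 1 - p) + 1 := by omega
  have hΛ := L.one_le_Λ
  have hm := L.m_pos
  have hμ := L.μ_pos
  have h1 : L.e p u + 2 ^ (d - 1 - p) + 1 ≤ L.e p u + 2 ^ (d - p) := by
    rw [h2, pow_succ]
    have : 1 ≤ 2 ^ (d - 1 - p) := Nat.one_le_two_pow
    omega
  have h4 := pow_le_pow_right₀ hΛ h1
  have h5 : L.μ ^ d ≤ L.μ ^ p := pow_le_pow_of_le_one hμ.le L.μ_le_one hp.le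
  have h6 := L.three_le
  have h7 : 0 < L.μ ^ d := pow_pos hμ d
  calc 3 * (L.m * L.Λ ^ (L.e p u + 2 ^ (d - 1 - p)))
      ≤ (L.μ ^ d * L.Λ) * (L.m * L.Λ ^ (L.e p u + 2 ^ (d - 1 - p))) := by gcongr
    _ = L.μ ^ d * (L.m * L.Λ ^ (L.e p u + 2 ^ (d - 1 - p) + 1)) := by ring
    _ ≤ _ := by gcongr

lemma snap_sep {u : ℕ → ℝ} (hu : L.Allowed u) {p : ℕ} (hp : p < d) {s s' : ℝ}
    (hs : s ∈ L.S p u) (hs' : s' ∈ L.S p u) : s = s' ∨ 3 * L.r p u ≤ |s - s'| := by
  rcases L.snap_sep_of hp (L.gap hu p hp.le) hs hs' with h | h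
  · left; exact h
  · right; exact (L.three_r_le_G hp u).trans h

/-- keep the first `p` entries, tie all the others at the value `t` -/
noncomputable def tail (p : ℕ) (u : ℕ → ℝ) (t : ℝ) : ℕ → ℝ := fun q => if q < p then u q else t

lemma tail_lt {p : ℕ} {u : ℕ → ℝ} {t : ℝ} {q : ℕ} (h : q < p) : tail p u t q = u q := if_pos h

lemma tail_ge {p : ℕ} {u : ℕ → ℝ} {t : ℝ} {q : ℕ} (h : p ≤ q) : tail p u t q = t :=
  if_neg (by omega)

lemma tail_mem_S {p : ℕ} {u : ℕ → ℝ} {t : ℝ} {q : ℕ} (h : p < q) (hq : q < d) :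
    tail p u t q ∈ L.S q (tail p u t) := by
  obtain ⟨q, rfl⟩ : ∃ q', q = q' + 1 := ⟨q - 1, by omega⟩
  have := L.tie_mem hq (tail p u t)
  rw [tail_ge (show p ≤ q by omega)] at this
  rw [tail_ge (show p ≤ q + 1 by omega)]
  exact this

lemma tail_allowed {p : ℕ} {u : ℕ → ℝ} (hu1 : ∀ q < p, q < d → L.Ok q u (u q))
    (hu2 : ∀ i j, i ≤ j → j < p → j < d → u j ≤ u i) {t : ℝ} (ht : L.Ok p u t)
    (hle : ∀ q < p, t ≤ u q) : L.Allowed (tail p u t) := by
  constructor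
  · intro q hq
    rcases lt_trichotomy q p with h | h | h
    · rw [tail_lt h, L.Ok_congr (v := u) (fun q' hq' => tail_lt (by omega))]
      exact hu1 q h hq
    · subst h
      rw [tail_ge le_rfl, L.Ok_congr (v := u) (fun q' hq' => tail_lt (by omega))]
      exact ht
    · left; exact L.tail_mem_S h hq
  · intro i j hij hj
    by_cases h1 : j < p
    · rw [tail_lt h1, tail_lt (show i < p by omega)]; exact hu2 i j hij h1 hj
    · rw [tail_ge (not_lt.1 h1)]
      by_cases h2 : i < p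
      · rw [tail_lt h2]; exact hle i h2
      · rw [tail_ge (not_lt.1 h2)]

lemma cost_split (p : ℕ) (hp : p ≤ d) (u : ℕ → ℝ) :
    L.cost u = ∑ q ∈ range p, L.ψ q u + ∑ q ∈ Ico p d, L.ψ q u := by
  unfold cost
  rw [sum_range_add_sum_Ico _ hp]

lemma cost_tail_le {p : ℕ} (hp : p ≤ d) (u : ℕ → ℝ) (t B : ℝ) (hB : 0 ≤ B)
    (h : ∀ q, p ≤ q → q < d → L.ψ q (tail p u t) ≤ B) :
    L.cost (tail p u t) ≤ ∑ q ∈ range p, L.ψ q u + d * B := by
  rw [L.cost_split p hp]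
  have h1 : ∑ q ∈ range p, L.ψ q (tail p u t) = ∑ q ∈ range p, L.ψ q u := by
    apply sum_congr rfl
    intro q hq
    have := mem_range.1 hq
    exact L.ψ_congr fun q' hq' => tail_lt (by omega)
  rw [h1]
  have h2 : ∑ q ∈ Ico p d, L.ψ q (tail p u t) ≤ (Ico p d).card • B :=
    sum_le_card_nsmul _ _ _ fun q hq => h q (mem_Ico.1 hq).1 (mem_Ico.1 hq).2
  rw [Nat.card_Ico, nsmul_eq_mul] at h2
  have h3 : ((d - p : ℕ) : ℝ) ≤ d := by exact_mod_cast Nat.sub_le d p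
  nlinarith

lemma ψ_tail_le {p : ℕ} (u : ℕ → ℝ) (t : ℝ) (q : ℕ) (h : p ≤ q) :
    L.ψ q (tail p u t) ≤ exp t := by
  have := L.ψ_le q (tail p u t)
  rwa [tail_ge h] at this

lemma ψ_tail_le_of_mem {p : ℕ} (u : ℕ → ℝ) (t : ℝ) (ht : t ∈ L.S p u) (q : ℕ) (h : p ≤ q)
    (hq : q < d) : L.ψ q (tail p u t) ≤ exp (t - L.r p u) := by
  have hS : L.S p (tail p u t) = L.S p u := L.S_congr fun q' hq' => tail_lt hq'
  have hr : L.r p (tail p u t) = L.r p u := L.r_congr fun q' hq' => tail_lt hq'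
  have he : L.e p (tail p u t) = L.e p u := L.e_congr fun q' hq' => tail_lt hq'
  have hmem : tail p u t p ∈ L.S p (tail p u t) := by rw [tail_ge le_rfl, hS]; exact ht
  rcases eq_or_lt_of_le h with h | h
  · subst h
    unfold ψ
    rw [if_pos hmem, hr, tail_ge le_rfl]
  · unfold ψ
    rw [if_pos (L.tail_mem_S h hq), tail_ge h.le]
    apply exp_le_exp.2
    have h1 : L.e (p + 1) (tail p u t) ≤ L.e q (tail p u t) := L.e_mono _ h
    rw [L.e_succ_of_mem hmem, he] at h1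
    have h2 : L.r p u ≤ L.r q (tail p u t) := by
      unfold r
      have := pow_le_pow_right₀ L.one_le_Λ
        (show L.e p u + 2 ^ (d - 1 - p) ≤ L.e q (tail p u t) + 2 ^ (d - 1 - q) from
          h1.trans (Nat.le_add_right _ _))
      exact mul_le_mul_of_nonneg_left this L.m_pos.le
    linarith

end Ladder

end Crest.Agent.R92
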