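import Crest.Agent.R92.Dyn
import Crest.Agent.R92.Flux

set_option autoImplicit false

namespace Crest.Agent.R92

open Set Real Filter Topology Crest.AnalysisR.MassAction

variable {d : ℕ}

lemma contDiff_field (R : Network d) (k : (Fin d → ℕ) × (Fin d → ℕ) → ℝ) :
    ContDiff ℝ 1 (field R k) := by
  unfold field
  apply ContDiff.sum
  intro r _
  apply ContDiff.smul_const
  apply ContDiff.mul contDiff_const
  apply contDiff_prod
  intro i _
  exact (contDiff_apply ℝ ℝ i).pow _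

lemma field_mem (R : Network d) (k : (Fin d → ℕ) × (Fin d → ℕ) → ℝ) (x : Fin d → ℝ) :
    field R k x ∈ stoichSubspace R := by
  unfold field
  apply Submodule.sum_mem
  intro r hr
  exact Submodule.smul_mem _ _ (Submodule.subset_span ⟨r, hr, rfl⟩)

lemma good_base (R : Network d) (k : (Fin d → ℕ) × (Fin d → ℕ) → ℝ) {c : Fin d → ℝ}
    (hc : ∀ i, 0 < c i) : Good (field R k) (positiveClass R c) c (positiveClass R c) := by
  refine ⟨⟨hc, by simp⟩, subset_rfl, ?_, ?_, ?_, ?_⟩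
  · intro x hx y hy a b ha hb hab
    constructor
    · intro i
      have h1 := hx.1 i
      have h2 := hy.1 i
      simp only [Pi.add_apply, Pi.smul_apply, smul_eq_mul]
      rcases ha.eq_or_lt with h | h
      · subst h; simp at hab; subst hab; simpa using h2
      · nlinarith [mul_pos h h1, mul_nonneg hb h2.le]
    · have : a • x + b • y - c = a • (x - c) + b • (y - c) := by
        rw [smul_sub, smul_sub, ← add_sub_add_comm, ← add_smul, hab, one_smul]
      rw [this]
      exact Submodule.add_mem _ (Submodule.smul_mem _ _ hx.2) (Submodule.smul_mem _ _ hy.2)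
  · refine ⟨(fun x => x - c) ⁻¹' (stoichSubspace R), ?_, ?_⟩
    · exact (Submodule.closed_of_finiteDimensional _).preimage (by fun_prop)
    · ext x; exact and_comm
  · intro x a b hx hpos hxa t ht
    refine ⟨hpos t ht, ?_⟩
    have : x t - x a ∈ stoichSubspace R := by
      by_contra hcon
      obtain ⟨ℓ, h1, h2⟩ := Submodule.exists_le_ker_of_notMem hcon
      set ℓ' := LinearMap.toContinuousLinearMap ℓ
      have h3 := constant_of_has_deriv_right_zero (f := fun s => ℓ' (x s)) (a := a) (b := b)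
        (ℓ'.continuous.comp_continuousOn hx.1) (fun s hs => by
          have h4 := ℓ'.hasFDerivAt.comp_hasDerivWithinAt s (hx.2 s hs)
          have h5 : ℓ' (field R k (x s)) = 0 := h2 (field_mem R k _)
          rw [h5] at h4
          exact h4) t ht
      apply h1
      rw [map_sub]
      exact sub_eq_zero.2 h3
    have h2 := Submodule.add_mem _ this hxa.2
    simpa using h2
  · intro x η R' _ _ _ h
    exact ⟨0, le_rfl, h⟩

lemma dot_eq_of_orth (R : Network d) {c x w : Fin d → ℝ} (hx : x ∈ positiveClass R c)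
    (hw : ∀ r ∈ R, w ⬝ᵥ reactionVector r = 0) : w ⬝ᵥ x = w ⬝ᵥ c := by
  have h : ∀ v ∈ stoichSubspace R, w ⬝ᵥ v = 0 := by
    intro v hv
    induction hv using Submodule.span_induction with
    | mem v hv => obtain ⟨r, hr, rfl⟩ := hv; exact hw r hr
    | zero => simp
    | add u v _ _ hu hv => rw [dotProduct_add, hu, hv, add_zero]
    | smul a v _ hv => rw [dotProduct_smul, hv, smul_zero]
  have := h _ hx.2
  rw [dotProduct_sub] at this
  linarith

lemma exists_box' {ι : Type*} [Fintype ι] {x : ι → ℝ} (hx : ∀ i, 0 < x i) :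
    ∃ η R : ℝ, 0 < η ∧ ∀ i, η ≤ x i ∧ x i ≤ R := by
  classical
  obtain ⟨μ, h1, -, h3⟩ := exists_pos_lower (Finset.univ.image x)
  exact ⟨μ, ‖x‖, h1, fun i => ⟨h3 _ (Finset.mem_image.2 ⟨i, Finset.mem_univ _, rfl⟩) (hx i),
    (le_abs_self _).trans (norm_le_pi_norm x i)⟩⟩

lemma exists_max {ι : Type*} [Fintype ι] {W : Set ((ι → ℝ) × ℝ)} (hW : LocFin W)
    (hne : W.Nonempty) {x : ι → ℝ} (hx : ∀ i, 0 < x i) :
    ∃ p ∈ W, ∀ q ∈ W, aff q x ≤ aff p x := by
  obtain ⟨η, R, hη, hb⟩ := exists_box' hx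
  obtain ⟨p0, hp0⟩ := hne
  obtain ⟨p, hp, h⟩ := Set.exists_max_image _ (fun p => aff p x) (hW η R (aff p0 x) hη)
    ⟨p0, hp0, x, hb, le_rfl⟩
  refine ⟨p, hp.1, fun q hq => ?_⟩
  by_cases h1 : aff p0 x ≤ aff q x
  · exact h q ⟨hq, x, hb, h1⟩
  · exact (not_le.1 h1).le.trans (h p0 ⟨hp0, x, hb, le_rfl⟩)

theorem exists_good_bounded (hd : 1 ≤ d) (R : Network d) (hR : IsWeaklyReversible R)
    (k : (Fin d → ℕ) × (Fin d → ℕ) → ℝ) (hk : ∀ r ∈ R, 0 < k r) {c : Fin d → ℝ}
    (hc : ∀ i, 0 < c i) :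
    ∃ Z, Good (field R k) (positiveClass R c) c Z ∧ ∃ B : ℝ, ∀ x ∈ Z, ∀ i, x i ≤ B := by
  classical
  have : Nonempty (Fin d) := ⟨⟨0, hd⟩⟩
  obtain ⟨δ, hδ⟩ := flux_neg R hR k hk
  obtain ⟨W, C, hW, -, hup, -, hkey⟩ :=
    key (ι := Fin d) ((R ×ˢ R).image fun rr => cvec rr.1.1 - cvec rr.2.1) δ
  obtain ⟨t, ψ, ht, hmem⟩ := hup 1
  obtain ⟨p0, -, hp0⟩ := exists_max hW ⟨_, hmem⟩ hc
  refine ⟨_, (good_base R k hc).step (contDiff_field R k).continuous hW (aff p0 c + 1)
    (fun p hp => by linarith [hp0 p hp]) ?_, aff p0 c + 1 + ψ, ?_⟩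
  · intro x hx p hp hmax hlam
    apply hδ x p.1 hx.1
    · intro r hr r' hr' h
      exact (hkey x hx.1 p hp hmax).2 _
        (Finset.mem_image.2 ⟨(r, r'), Finset.mem_product.2 ⟨hr, hr'⟩, rfl⟩) h
    · by_contra hcon
      push Not at hcon
      have h1 := dot_eq_of_orth R hx hcon
      have h2 := hp0 p hp
      unfold aff at hlam h2
      linarith
  · rintro x ⟨hx, h⟩ i
    have h1 := h _ hmem
    unfold aff at h1
    have h2 : t * x i ≤ (fun _ => t) ⬝ᵥ x :=
      Finset.single_le_sum (f := fun j => t * x j)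
        (fun j _ => mul_nonneg (by linarith) (hx.1 j).le) (Finset.mem_univ i)
    have h3 := hx.1 i
    simp only at h1
    unfold aff
    nlinarith

/-- on `Z`, one of the coordinates in `J` is at least some fixed positive number -/
def Thick (Z : Set (Fin d → ℝ)) (J : Finset (Fin d)) : Prop :=
  ∃ η : ℝ, 0 < η ∧ ∀ x ∈ Z, ∃ j ∈ J, η ≤ x j

lemma Thick.mono {Z Z' : Set (Fin d → ℝ)} {J : Finset (Fin d)} (h : Thick Z J) (hZ : Z' ⊆ Z) :
    Thick Z' J := by
  obtain ⟨η, h1, h2⟩ := h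
  exact ⟨η, h1, fun x hx => h2 x (hZ hx)⟩

/-- extension by zero -/
noncomputable def extZ (I : Finset (Fin d)) (w : I → ℝ) : Fin d → ℝ :=
  fun i => if h : i ∈ I then w ⟨i, h⟩ else 0

lemma dot_extZ (I : Finset (Fin d)) (w : I → ℝ) (x : Fin d → ℝ) :
    extZ I w ⬝ᵥ x = w ⬝ᵥ (fun i : I => x i) := by
  unfold dotProduct
  rw [← Finset.sum_subset (Finset.subset_univ I) (by intro i _ hi; simp [extZ, hi]),
    ← Finset.sum_coe_sort]
  apply Finset.sum_congr rfl
  intro i _
  simp [extZ]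

theorem step_face (R : Network d) (hR : IsWeaklyReversible R)
    (k : (Fin d → ℕ) × (Fin d → ℕ) → ℝ) (hk : ∀ r ∈ R, 0 < k r) {c : Fin d → ℝ}
    (hc : ∀ i, 0 < c i) {Z : Set (Fin d → ℝ)} (hZ : Good (field R k) (positiveClass R c) c Z)
    {B : ℝ} (hB : ∀ x ∈ Z, ∀ i, x i ≤ B) {I : Finset (Fin d)} (hI : I.Nonempty)
    (hth : ∀ j ∉ I, Thick Z (insert j I)) :
    ∃ Z' ⊆ Z, Good (field R k) (positiveClass R c) c Z' ∧ Thick Z' I := by
  classical
  obtain ⟨i0, hi0⟩ := hI
  have : Nonempty I := ⟨⟨i0, hi0⟩⟩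
  obtain ⟨δ, hδ⟩ := flux_neg R hR k hk
  choose! η hη hη' using hth
  obtain ⟨η0, hη0, -, h3⟩ := exists_pos_lower ((Finset.univ.filter (· ∉ I)).image η)
  have hη0' : ∀ j ∉ I, η0 ≤ η j := fun j hj =>
    h3 _ (Finset.mem_image.2 ⟨j, by simpa using hj, rfl⟩) (hη j hj)
  set Lg := max |log η0| |log B| with hLg
  obtain ⟨N, hN⟩ := ((R ×ˢ R).image fun rr =>
    ∑ i, |(cvec rr.1.1 - cvec rr.2.1) i|).bddAbove
  obtain ⟨W, C, hW, hpos, -, hdown, hkey⟩ :=
    key (ι := I) ((R ×ˢ R).image fun rr => fun i : I => (cvec rr.1.1 - cvec rr.2.1) i)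
      (δ + N * Lg)
  set W' : Set ((Fin d → ℝ) × ℝ) :=
    (fun p => (extZ I p.1, p.2)) '' {p ∈ W | ∀ i, p.1 i ≤ -1} with hW'
  have haff : ∀ (p : (I → ℝ) × ℝ) (x : Fin d → ℝ),
      aff (extZ I p.1, p.2) x = aff p (fun i : I => x i) := by
    intro p x; unfold aff; rw [dot_extZ]
  have hneg : ∀ p ∈ W, (∀ i, p.1 i ≤ -1) → ∀ x : Fin d → ℝ, (∀ i, 0 < x i) → ∀ i ∈ I,
      aff p (fun i : I => x i) < - x i := by
    intro p hp h x hx i hi
    have h1 : -(p.1 ⟨i, hi⟩ * x i) ≤ ∑ j : I, -(p.1 j * x j) :=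
      Finset.single_le_sum (f := fun j : I => -(p.1 j * x j))
        (fun j _ => by nlinarith [h j, hx j]) (Finset.mem_univ (⟨i, hi⟩ : I))
    rw [Finset.sum_neg_distrib] at h1
    have h2 := hpos p hp
    have h3 := h ⟨i, hi⟩
    have h4 := hx i
    unfold aff dotProduct
    nlinarith
  set ε := min (min η0 (exp (-1 - C))) (c i0 / 2) with hε
  have hε0 : 0 < ε := lt_min (lt_min hη0 (exp_pos _)) (by linarith [hc i0])
  have hε1 : ε ≤ η0 := (min_le_left _ _).trans (min_le_left _ _)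
  have hε2 : ε ≤ exp (-1 - C) := (min_le_left _ _).trans (min_le_right _ _)
  have hε3 : ε ≤ c i0 / 2 := min_le_right _ _
  have hLF : LocFin W' := by
    intro a b lam ha
    apply ((hW a b lam ha).image (fun p => (extZ I p.1, p.2))).subset
    rintro _ ⟨⟨p, hp, rfl⟩, x, hx, h⟩
    exact ⟨p, ⟨hp.1, fun i : I => x i, fun i => hx i, by rwa [haff] at h⟩, rfl⟩
  refine ⟨_, inter_subset_left, hZ.step (contDiff_field R k).continuous hLF (-ε) ?_ ?_, ?_⟩
  · rintro _ ⟨p, hp, rfl⟩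
    rw [haff]
    linarith [hneg p hp.1 hp.2 c hc i0 hi0, hc i0]
  · rintro x hxZ _ ⟨p, hp, rfl⟩ hmax hlam
    have hx := hZ.sub hxZ
    rw [haff] at hlam
    have hsmall : ∀ i ∈ I, x i < ε := fun i hi => by
      linarith [hneg p hp.1 hp.2 x hx.1 i hi]
    have hxI : ∀ i : I, 0 < x i := fun i => hx.1 i
    obtain ⟨p', hp', hmax'⟩ := exists_max hW ⟨p, hp.1⟩ hxI
    have h1 : ∀ i, p'.1 i ≤ -1 := by
      intro i
      have h2 := (hkey _ hxI p' hp' hmax').1 i
      have h3 := (log_le_iff_le_exp (hxI i)).2 ((hsmall i i.2).le.trans hε2)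
      linarith
    have h2 := hmax _ ⟨p', ⟨hp', h1⟩, rfl⟩
    rw [haff, haff] at h2
    have hmax'' : ∀ q ∈ W, aff q (fun i : I => x i) ≤ aff p (fun i : I => x i) :=
      fun q hq => (hmax' q hq).trans h2
    have hbig : ∀ j ∉ I, |log (x j)| ≤ Lg := by
      intro j hj
      obtain ⟨j', hj', h4⟩ := hη' j hj x hxZ
      have h5 : η0 ≤ x j := by
        rcases Finset.mem_insert.1 hj' with rfl | h
        · exact (hη0' _ hj).trans h4
        · linarith [hsmall j' h, hη0' j hj]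
      have h6 := log_le_log hη0 h5
      have h7 := log_le_log (hx.1 j) (hB x hxZ j)
      rw [abs_le]
      constructor
      · linarith [neg_abs_le (log η0), le_max_left |log η0| |log B|]
      · linarith [le_abs_self (log B), le_max_right |log η0| |log B|]
    apply hδ x _ hx.1
    · intro r hr r' hr' h
      set a := cvec r.1 - cvec r'.1 with ha
      simp only at h
      rw [dotProduct_comm, dot_extZ, dotProduct_comm] at h
      have h4 := (hkey _ hxI p hp.1 hmax'').2 _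
        (Finset.mem_image.2 ⟨(r, r'), Finset.mem_product.2 ⟨hr, hr'⟩, rfl⟩) h
      have h5 : ∑ i, |a i| ≤ N := hN (Finset.mem_coe.2
        (Finset.mem_image.2 ⟨(r, r'), Finset.mem_product.2 ⟨hr, hr'⟩, rfl⟩))
      have h6 : (fun i : I => a i) ⬝ᵥ (fun i : I => log (x i)) =
          extZ I (fun i : I => a i) ⬝ᵥ (fun i => log (x i)) := by rw [dot_extZ]
      have h7 : extZ I (fun i : I => a i) ⬝ᵥ (fun i => log (x i)) - a ⬝ᵥ (fun i => log (x i)) ≤
          (∑ i, |a i|) * Lg := by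
        unfold dotProduct
        rw [← Finset.sum_sub_distrib, Finset.sum_mul]
        apply Finset.sum_le_sum
        intro i _
        have hLg0 : 0 ≤ Lg := (abs_nonneg _).trans (le_max_left _ _)
        by_cases hi : i ∈ I
        · simp only [extZ, hi, dif_pos, sub_self]
          positivity
        · simp only [extZ, hi, dif_neg, not_false_eq_true, zero_mul, zero_sub]
          calc -(a i * log (x i)) ≤ |a i * log (x i)| := neg_le_abs _
            _ = |a i| * |log (x i)| := abs_mul _ _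
            _ ≤ _ := mul_le_mul_of_nonneg_left (hbig i hi) (abs_nonneg _)
      have hLg0 : 0 ≤ Lg := (abs_nonneg _).trans (le_max_left _ _)
      have h8 : (∑ i, |a i|) * Lg ≤ N * Lg := mul_le_mul_of_nonneg_right h5 hLg0
      simp only at h4
      rw [h6] at h4
      linarith
    · by_contra hcon
      push Not at hcon
      have h4 := dot_eq_of_orth R hx hcon
      simp only at h4
      rw [dot_extZ, dot_extZ] at h4
      have h5 := hneg p hp.1 hp.2 c hc i0 hi0
      unfold aff at hlam h5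
      linarith [hc i0]
  · set n : ℝ := (Fintype.card I : ℝ) with hn
    have hn0 : 0 < n := by rw [hn]; exact_mod_cast Fintype.card_pos
    obtain ⟨t, ψ, ht, hψ, hmem⟩ := hdown (min (-1) (log (ε / (4 * n))))
    have ht1 : t ≤ -1 := ht.trans (min_le_left _ _)
    have ht2 : exp t ≤ ε / (4 * n) := (le_log_iff_exp_le (by positivity)).1
      (ht.trans (min_le_right _ _))
    have hψ' : ψ ≤ ε / 4 := by
      refine hψ.trans ?_
      calc n * exp t ≤ n * (ε / (4 * n)) := by gcongr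
        _ = ε / 4 := by field_simp
    refine ⟨ε / (4 * n * (-t)), div_pos hε0 (mul_pos (by positivity) (by linarith)), ?_⟩
    rintro x ⟨hxZ, hx⟩
    by_contra hcon
    push Not at hcon
    have h1 := hx _ ⟨(fun _ => t, ψ), ⟨hmem, fun _ => ht1⟩, rfl⟩
    rw [haff] at h1
    unfold aff dotProduct at h1
    simp only at h1
    have h2 : ∑ i : I, -(t * x i) ≤ (Finset.univ : Finset I).card • (ε / (4 * n)) := by
      apply Finset.sum_le_card_nsmul
      intro i _
      have h3 := (hcon i i.2).le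
      rw [le_div_iff₀ (mul_pos (by positivity) (by linarith))] at h3
      rw [le_div_iff₀ (by positivity)]
      linarith
    rw [Finset.sum_neg_distrib, Finset.card_univ, nsmul_eq_mul, ← hn] at h2
    have h3 : n * (ε / (4 * n)) = ε / 4 := by field_simp
    linarith

theorem exists_good_compact (hd : 1 ≤ d) (R : Network d) (hR : IsWeaklyReversible R)
    (k : (Fin d → ℕ) × (Fin d → ℕ) → ℝ) (hk : ∀ r ∈ R, 0 < k r) {c : Fin d → ℝ}
    (hc : ∀ i, 0 < c i) :
    ∃ Z, Good (field R k) (positiveClass R c) c Z ∧ IsCompact Z := by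
  classical
  obtain ⟨Z0, hZ0, B, hB⟩ := exists_good_bounded hd R hR k hk hc
  have h1 : ∀ n : ℕ, ∃ Z ⊆ Z0, Good (field R k) (positiveClass R c) c Z ∧
      ∀ J : Finset (Fin d), J.Nonempty → d < J.card + n → Thick Z J := by
    intro n
    induction n with
    | zero =>
      refine ⟨Z0, subset_rfl, hZ0, fun J _ hJ => ?_⟩
      have := J.card_le_univ
      simp at this
      omega
    | succ n ih =>
      obtain ⟨Z, hZZ, hZ, hth⟩ := ih
      have h2 : ∀ F : Finset (Finset (Fin d)), ∃ Z' ⊆ Z,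
          Good (field R k) (positiveClass R c) c Z' ∧
          ∀ J ∈ F, J.Nonempty → d < J.card + (n + 1) → Thick Z' J := by
        intro F
        induction F using Finset.induction_on with
        | empty => exact ⟨Z, subset_rfl, hZ, by simp⟩
        | insert I F _ ih =>
          obtain ⟨Z', hZ', hg, hth'⟩ := ih
          by_cases hI : I.Nonempty ∧ d < I.card + (n + 1)
          · obtain ⟨Z'', h1, h2, h3⟩ := step_face R hR k hk hc hg
              (fun x hx => hB x (hZZ (hZ' hx))) hI.1 (fun j hj => (hth _ (Finset.insert_nonempty _ _)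
                (by rw [Finset.card_insert_of_notMem hj]; omega)).mono hZ')
            refine ⟨Z'', h1.trans hZ', h2, fun J hJ h4 h5 => ?_⟩
            rcases Finset.mem_insert.1 hJ with rfl | hJ
            · exact h3
            · exact (hth' J hJ h4 h5).mono h1
          · refine ⟨Z', hZ', hg, fun J hJ h4 h5 => ?_⟩
            rcases Finset.mem_insert.1 hJ with rfl | hJ
            · exact absurd ⟨h4, h5⟩ hI
            · exact hth' J hJ h4 h5
      obtain ⟨Z', h3, h4, h5⟩ := h2 Finset.univ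
      exact ⟨Z', h3.trans hZZ, h4, fun J => h5 J (Finset.mem_univ _)⟩
  obtain ⟨Z, hZZ, hZ, hth⟩ := h1 d
  refine ⟨Z, hZ, ?_⟩
  have h2 : ∀ i : Fin d, ∃ η : ℝ, 0 < η ∧ ∀ x ∈ Z, η ≤ x i := by
    intro i
    obtain ⟨η, h1, h2⟩ := hth {i} (Finset.singleton_nonempty _) (by simp)
    exact ⟨η, h1, fun x hx => by simpa using h2 x hx⟩
  choose η hη hη' using h2
  obtain ⟨μ, h3, -, h4⟩ := exists_pos_lower (Finset.univ.image η)
  obtain ⟨C, hC, hZC⟩ := hZ.closed
  have h5 : Z = {x : Fin d → ℝ | ∀ i, μ ≤ x i ∧ x i ≤ B} ∩ C := by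
    ext x
    constructor
    · intro hx
      refine ⟨fun i => ⟨?_, hB x (hZZ hx) i⟩, (hZC ▸ hx).1⟩
      exact (h4 _ (Finset.mem_image.2 ⟨i, Finset.mem_univ _, rfl⟩) (hη i)).trans (hη' i x hx)
    · rintro ⟨h5, h6⟩
      rw [hZC]
      exact ⟨h6, fun i => h3.trans_le (h5 i).1⟩
  rw [h5]
  exact (isCompact_box μ B).inter_right hC

lemma sol_of_forward {f : (Fin d → ℝ) → (Fin d → ℝ)} {x : ℝ → Fin d → ℝ}
    (hx : IsForwardSolution f x) (b : ℝ) : Sol f x 0 b :=
  ⟨fun t ht => (hx t ht.1).continuousWithinAt.mono Icc_subset_Ici_self,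
    fun t ht => (hx t ht.1).mono (Ici_subset_Ici.2 ht.1)⟩

lemma isOpen_pos : IsOpen {x : Fin d → ℝ | Pos x} := by
  simp only [Pos, ofPred_forall]
  exact isOpen_iInter_of_finite fun i => isOpen_lt continuous_const (continuous_apply i)

lemma forward_inv {f : (Fin d → ℝ) → (Fin d → ℝ)} {P : Set (Fin d → ℝ)}
    {c : Fin d → ℝ} {Z : Set (Fin d → ℝ)} (hZ : Good f P c Z) (hZc : IsClosed Z)
    {x : ℝ → Fin d → ℝ} (hx : IsForwardSolution f x) {a : ℝ} (ha : 0 ≤ a) (hxa : x a ∈ Z)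
    {t : ℝ} (ht : a ≤ t) : x t ∈ Z := by
  obtain ⟨C, -, hC⟩ := hZ.closed
  exact hZ.inv' hZc isOpen_pos (fun y hy => (hC ▸ hy).2) (fun _ h => h) (fun _ _ => rfl)
    ((sol_of_forward hx t).mono ha le_rfl) hxa t ⟨ht, le_rfl⟩

theorem exists_forward {f : (Fin d → ℝ) → (Fin d → ℝ)} (hf : ContDiff ℝ 1 f)
    {P : Set (Fin d → ℝ)} {c : Fin d → ℝ} {Z : Set (Fin d → ℝ)} (hZ : Good f P c Z)
    (hZc : IsCompact Z) : ∃ x, IsForwardSolution f x ∧ x 0 = c := by
  obtain ⟨ρ, hρ0, hρ⟩ := hZc.isBounded.subset_ball_lt 0 (0 : Fin d → ℝ)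
  set cl : (Fin d → ℝ) → (Fin d → ℝ) := fun y i => max (-ρ) (min (y i) ρ) with hcl
  have hcl1 : LipschitzWith 1 cl := by
    apply LipschitzWith.of_dist_le_mul
    intro y z
    rw [NNReal.coe_one, one_mul, dist_pi_le_iff dist_nonneg]
    intro i
    have h1 : LipschitzWith 1 (fun s : ℝ => max (-ρ) (min s ρ)) :=
      (LipschitzWith.id.min_const ρ).const_max (-ρ)
    have h2 := h1.dist_le_mul (y i) (z i)
    rw [NNReal.coe_one, one_mul] at h2
    exact h2.trans (dist_le_pi_dist y z i)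
  have hcl2 : ∀ y, cl y ∈ Metric.closedBall (0 : Fin d → ℝ) ρ := by
    intro y
    rw [mem_closedBall_zero_iff, pi_norm_le_iff_of_nonneg hρ0.le]
    intro i
    rw [Real.norm_eq_abs, abs_le]
    exact ⟨le_max_left _ _, max_le (by linarith) (min_le_right _ _)⟩
  have hcl3 : ∀ y ∈ Metric.ball (0 : Fin d → ℝ) ρ, cl y = y := by
    intro y hy
    funext i
    rw [mem_ball_zero_iff] at hy
    have h1 := abs_lt.1 ((norm_le_pi_norm y i).trans_lt hy)
    simp only [hcl]
    rw [min_eq_left h1.2.le, max_eq_right h1.1.le]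
  obtain ⟨K, hK⟩ := hf.contDiffOn.exists_lipschitzOnWith (s := Metric.closedBall 0 ρ) one_ne_zero
    (convex_closedBall _ _) (isCompact_closedBall _ _)
  obtain ⟨L, hL⟩ := (isCompact_closedBall (0 : Fin d → ℝ) ρ).exists_bound_of_continuousOn
    hf.continuous.continuousOn
  have hg : LipschitzWith (K * 1) (f ∘ cl) := by
    rw [← lipschitzOnWith_univ]
    exact hK.comp hcl1.lipschitzOnWith fun y _ => hcl2 y
  obtain ⟨x, hx0, hx⟩ := exists_global (L := ⟨max L 0, le_max_right _ _⟩) hg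
    (fun y => (hL _ (hcl2 y)).trans (le_max_left _ _)) c
  refine ⟨x, fun t ht => ?_, hx0⟩
  obtain ⟨C, -, hC⟩ := hZ.closed
  have h1 := hZ.inv' (g := f ∘ cl) hZc.isClosed (isOpen_pos.inter Metric.isOpen_ball)
    (fun y hy => ⟨(hC ▸ hy).2, hρ hy⟩) (fun _ h => h.1)
    (fun y hy => by simp only [Function.comp]; rw [hcl3 y hy.2])
    (sol_of_forward hx t) (hx0 ▸ hZ.mem) t ⟨ht, le_rfl⟩
  have h2 := hx t ht
  simp only [Function.comp] at h2
  rwa [hcl3 _ (hρ h1)] at h2

theorem forward_unique {f : (Fin d → ℝ) → (Fin d → ℝ)} (hf : ContDiff ℝ 1 f)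
    {x x' : ℝ → Fin d → ℝ} (hx : IsForwardSolution f x) (hx' : IsForwardSolution f x')
    (h0 : x 0 = x' 0) {t : ℝ} (ht : 0 ≤ t) : x t = x' t := by
  have h1 := sol_of_forward hx t
  have h2 := sol_of_forward hx' t
  obtain ⟨ρ, hρ⟩ := ((isCompact_Icc.image_of_continuousOn h1.1).union
    (isCompact_Icc.image_of_continuousOn h2.1)).isBounded.subset_closedBall (0 : Fin d → ℝ)
  obtain ⟨K, hK⟩ := hf.contDiffOn.exists_lipschitzOnWith (s := Metric.closedBall 0 ρ) one_ne_zero
    (convex_closedBall _ _) (isCompact_closedBall _ _)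
  exact ODE_solution_unique_of_mem_Icc_right (v := fun _ => f)
    (s := fun _ => Metric.closedBall 0 ρ) (K := K) (fun _ _ => hK) h1.1 h1.2
    (fun s hs => hρ (Or.inl ⟨s, Ico_subset_Icc_self hs, rfl⟩)) h2.1 h2.2
    (fun s hs => hρ (Or.inr ⟨s, Ico_subset_Icc_self hs, rfl⟩)) h0 ⟨ht, le_rfl⟩

lemma positiveClass_eq (R : Network d) {c x0 : Fin d → ℝ} (h : x0 ∈ positiveClass R c) :
    positiveClass R x0 = positiveClass R c := by
  ext x
  constructor
  · rintro ⟨h1, h2⟩
    exact ⟨h1, by simpa using Submodule.add_mem _ h2 h.2⟩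
  · rintro ⟨h1, h2⟩
    exact ⟨h1, by simpa using Submodule.sub_mem _ h2 h.2⟩

end Crest.Agent.R92
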