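import Crest.Agent.R92.Ladder

set_option autoImplicit false

namespace Crest.Agent.R92

open Finset Real

namespace Ladder

variable {d : ℕ} (L : Ladder d)

lemma dot_split (p : ℕ) (hp : p ≤ d) (u ξ : ℕ → ℝ) :
    dot d u ξ = ∑ q ∈ range p, u q * ξ q + ∑ q ∈ Ico p d, u q * ξ q := by
  unfold dot
  rw [sum_range_add_sum_Ico _ hp]

lemma dot_tail_sub (p : ℕ) (hp : p ≤ d) (u ξ : ℕ → ℝ) (t : ℝ) :
    dot d (tail p u t) ξ - dot d u ξ = ∑ q ∈ Ico p d, (t - u q) * ξ q := by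
  rw [dot_split p hp, dot_split p hp]
  have h1 : ∑ q ∈ range p, tail p u t q * ξ q = ∑ q ∈ range p, u q * ξ q :=
    sum_congr rfl fun q hq => by rw [tail_lt (mem_range.1 hq)]
  have h2 : ∑ q ∈ Ico p d, tail p u t q * ξ q = ∑ q ∈ Ico p d, t * ξ q :=
    sum_congr rfl fun q hq => by rw [tail_ge (mem_Ico.1 hq).1]
  rw [h1, h2]
  simp only [sub_mul, sum_sub_distrib]
  ring

variable {u ξ : ℕ → ℝ}

lemma up (hu : L.Allowed u) (hξ : ∀ q < d, 0 < ξ q)
    (hmax : ∀ v, L.Allowed v → dot d v ξ - L.cost v ≤ dot d u ξ - L.cost u)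
    {p : ℕ} (hp : p < d) {t B : ℝ} (ht : L.Ok p u t) (hle : ∀ q < p, t ≤ u q)
    (h1 : u p + 1 ≤ t) (hB : 0 ≤ B) (h : ∀ q, p ≤ q → q < d → L.ψ q (tail p u t) ≤ B) :
    ξ p ≤ d * B := by
  have ha : L.Allowed (tail p u t) :=
    L.tail_allowed (fun q _ hq => hu.1 q hq) (fun i j hij _ hj => hu.2 i j hij hj) ht hle
  have h2 := hmax _ ha
  have h3 := dot_tail_sub p hp.le u ξ t
  have h4 := L.cost_tail_le hp.le u t B hB h
  have h5 := L.cost_split p hp.le u
  have h6 : 0 ≤ ∑ q ∈ Ico p d, L.ψ q u := sum_nonneg fun q _ => (L.ψ_pos q u).le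
  have h7 : (t - u p) * ξ p ≤ ∑ q ∈ Ico p d, (t - u q) * ξ q := by
    apply single_le_sum (f := fun q => (t - u q) * ξ q) _ (mem_Ico.2 ⟨le_rfl, hp⟩)
    intro q hq
    have := hu.2 p q (mem_Ico.1 hq).1 (mem_Ico.1 hq).2
    exact mul_nonneg (by linarith) (hξ q (mem_Ico.1 hq).2).le
  have h8 := hξ p hp
  nlinarith

lemma down (hu : L.Allowed u) (hξ : ∀ q < d, 0 < ξ q) (hξa : ∀ i j, i ≤ j → j < d → ξ j ≤ ξ i)
    (hmax : ∀ v, L.Allowed v → dot d v ξ - L.cost v ≤ dot d u ξ - L.cost u)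
    {p : ℕ} (hp : p < d) {t : ℝ} (ht : L.Ok p u t) (h1 : t ≤ u p) :
    L.ψ p u - d * exp t ≤ d * ((u p - t) * ξ p) := by
  have ha : L.Allowed (tail p u t) :=
    L.tail_allowed (fun q _ hq => hu.1 q hq) (fun i j hij _ hj => hu.2 i j hij hj) ht
      (fun q hq => h1.trans (hu.2 q p hq.le hp))
  have h2 := hmax _ ha
  have h3 := dot_tail_sub p hp.le u ξ t
  have h4 := L.cost_tail_le hp.le u t (exp t) (exp_pos t).le
    (fun q hq _ => L.ψ_tail_le u t q hq)
  have h5 := L.cost_split p hp.le u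
  have h6 : L.ψ p u ≤ ∑ q ∈ Ico p d, L.ψ q u :=
    single_le_sum (f := fun q => L.ψ q u) (fun q _ => (L.ψ_pos q u).le) (mem_Ico.2 ⟨le_rfl, hp⟩)
  have h0 : 0 ≤ (u p - t) * ξ p := mul_nonneg (by linarith) (hξ p hp).le
  have h7 : ∑ q ∈ Ico p d, -((t - u q) * ξ q) ≤ (Ico p d).card • ((u p - t) * ξ p) := by
    apply sum_le_card_nsmul
    intro q hq
    have h8 := hu.2 p q (mem_Ico.1 hq).1 (mem_Ico.1 hq).2
    have h9 := hξa p q (mem_Ico.1 hq).1 (mem_Ico.1 hq).2
    have h10 := hξ q (mem_Ico.1 hq).2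
    nlinarith
  rw [Nat.card_Ico, nsmul_eq_mul, sum_neg_distrib] at h7
  have h3' : ((d - p : ℕ) : ℝ) ≤ d := by exact_mod_cast Nat.sub_le d p
  nlinarith

lemma exists_ok_near (p : ℕ) (u : ℕ → ℝ) (τ : ℝ) :
    ∃ t, L.Ok p u t ∧ t ≤ τ ∧ τ - 2 * L.r p u - 1 ≤ t := by
  have hr := L.one_le_r p u
  set n : ℤ := ⌊τ - L.r p u⌋ with hn
  have h1 : (n : ℝ) ≤ τ - L.r p u := Int.floor_le _
  have h2 : τ - L.r p u < n + 1 := Int.lt_floor_add_one _
  by_cases h : ∀ s ∈ L.S p u, L.r p u ≤ |(n : ℝ) - s|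
  · exact ⟨n, Or.inr ⟨⟨n, rfl⟩, h⟩, by linarith, by linarith⟩
  · push Not at h
    obtain ⟨s, hs, h3⟩ := h
    rw [abs_lt] at h3
    exact ⟨s, Or.inl hs, by linarith [h3.1], by linarith [h3.2]⟩

lemma big' {p : ℕ} (hp : p < d) (u : ℕ → ℝ) : 10 * d * L.r p u ≤ exp L.m := by
  have h1 := L.big
  have h2 := L.r_le p hp u
  have : (0 : ℝ) ≤ 10 * d := by positivity
  exact (mul_le_mul_of_nonneg_left h2 this).trans h1

lemma lower (hu : L.Allowed u) (hξ : ∀ q < d, 0 < ξ q) (hξa : ∀ i j, i ≤ j → j < d → ξ j ≤ ξ i)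
    (hmax : ∀ v, L.Allowed v → dot d v ξ - L.cost v ≤ dot d u ξ - L.cost u)
    {p : ℕ} (hp : p < d) : L.ψ p u ≤ exp L.m * ξ p := by
  obtain ⟨t, ht, h1, h2⟩ := L.exists_ok_near p u (u p - L.r p u - L.m)
  have hr := L.one_le_r p u
  have hmr := L.m_le_r p u
  have hm := L.m_pos
  have h3 := L.down hu hξ hξa hmax hp ht (by linarith)
  have h4 := L.big' hp u
  have h5 := L.le_ψ p u
  have hd : (1 : ℝ) ≤ d := by exact_mod_cast (show 1 ≤ d by omega)
  have h6 : exp t * exp L.m ≤ exp (u p - L.r p u) := by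
    rw [← exp_add]; exact exp_le_exp.2 (by linarith)
  have h7 : 2 * d ≤ exp L.m := by nlinarith
  have h8 : d * exp t ≤ L.ψ p u / 2 := by
    have := exp_pos t
    nlinarith
  have h9 := hξ p hp
  have h10 : (u p - t) * ξ p ≤ 5 * L.r p u * ξ p :=
    mul_le_mul_of_nonneg_right (by linarith) h9.le
  have h11 : d * ((u p - t) * ξ p) ≤ d * (5 * L.r p u * ξ p) :=
    mul_le_mul_of_nonneg_left h10 (by linarith)
  have h12 : 10 * d * L.r p u * ξ p ≤ exp L.m * ξ p := mul_le_mul_of_nonneg_right h4 h9.le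
  nlinarith

lemma d_mul_exp_le {p : ℕ} (hp : p < d) (a : ℝ) : d * exp (a + 1) ≤ exp (a + L.m) := by
  have h4 := L.big' hp 0
  have hr := L.one_le_r p 0
  have hd : (1 : ℝ) ≤ d := by exact_mod_cast (show 1 ≤ d by omega)
  have h1 : exp 1 ≤ 10 := by linarith [Real.exp_one_lt_d9]
  rw [exp_add, exp_add]
  have h2 := exp_pos a
  have h3 : d * exp 1 ≤ exp L.m := by nlinarith
  nlinarith

lemma upper_inactive (hu : L.Allowed u) (hξ : ∀ q < d, 0 < ξ q)
    (hmax : ∀ v, L.Allowed v → dot d v ξ - L.cost v ≤ dot d u ξ - L.cost u)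
    {p : ℕ} (hp : p < d) (hact : u p ∉ L.S p u) : ξ p ≤ exp (u p + L.m) := by
  have hr := L.one_le_r p u
  rcases hu.1 p hp with h | ⟨⟨n, hn⟩, h⟩
  · exact absurd h hact
  -- previous value is far above
  have hprev : ∀ q, q + 1 = p → u p + L.r p u ≤ u q := by
    intro q hq
    subst hq
    have h1 := h _ (L.tie_mem hp u)
    have h2 := hu.2 q (q + 1) (by omega) hp
    rw [abs_of_nonpos (by linarith)] at h1
    linarith
  have hprev' : ∀ t, (∀ q, q + 1 = p → t ≤ u q) → ∀ q < p, t ≤ u q := by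
    intro t ht q hq
    have h1 := ht (p - 1) (by omega)
    exact h1.trans (hu.2 q (p - 1) (by omega) (by omega))
  refine le_trans ?_ (L.d_mul_exp_le hp (u p))
  by_cases h1 : ∀ s ∈ L.S p u, L.r p u ≤ |u p + 1 - s|
  · apply L.up hu hξ hmax hp (t := u p + 1) (Or.inr ⟨⟨n + 1, by rw [hn]; push_cast; ring⟩, h1⟩)
      (hprev' _ fun q hq => by linarith [hprev q hq]) le_rfl (exp_pos _).le
    intro q hq _
    exact L.ψ_tail_le u _ q hq
  · push Not at h1
    obtain ⟨s, hs, h2⟩ := h1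
    have h3 := h s hs
    rw [abs_lt] at h2
    have h4 : u p + L.r p u ≤ s := by
      rcases le_abs.1 h3 with h5 | h5
      · linarith [h2.2]
      · linarith
    -- choose `s'`
    have : ∃ s' ∈ L.S p u, u p + L.r p u ≤ s' ∧ s' ≤ u p + L.r p u + 1 ∧
        ∀ q, q + 1 = p → s' ≤ u q := by
      by_cases h5 : ∀ q, q + 1 = p → s ≤ u q
      · exact ⟨s, hs, h4, by linarith [h2.1], h5⟩
      · push Not at h5
        obtain ⟨q, hq, h6⟩ := h5
        refine ⟨u q, by subst hq; exact L.tie_mem hp u, hprev q hq, by linarith [h2.1], ?_⟩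
        intro q' hq'
        rw [show q' = q by omega]
    obtain ⟨s', hs', h5, h6, h7⟩ := this
    apply L.up hu hξ hmax hp (t := s') (Or.inl hs') (hprev' _ h7) (by linarith) (exp_pos _).le
    intro q hq hq'
    exact (L.ψ_tail_le_of_mem u s' hs' q hq hq').trans (exp_le_exp.2 (by linarith))

lemma upper_active (hu : L.Allowed u) (hξ : ∀ q < d, 0 < ξ q)
    (hmax : ∀ v, L.Allowed v → dot d v ξ - L.cost v ≤ dot d u ξ - L.cost u)
    {p : ℕ} (hp : p < d) (hact : u p ∈ L.S p u) (hnt : ∀ q, q + 1 = p → u q ≠ u p) :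
    ξ p ≤ exp (u p + L.r p u + L.m) := by
  have hr := L.one_le_r p u
  set n : ℤ := ⌈u p + L.r p u⌉ with hn
  have h1 : u p + L.r p u ≤ n := Int.le_ceil _
  have h2 : (n : ℝ) < u p + L.r p u + 1 := Int.ceil_lt_add_one _
  refine le_trans ?_ (L.d_mul_exp_le hp (u p + L.r p u))
  apply L.up hu hξ hmax hp (t := n) (Or.inr ⟨⟨n, rfl⟩, ?_⟩) ?_ (by linarith) (exp_pos _).le
  · intro q hq _
    exact (L.ψ_tail_le u _ q hq).trans (exp_le_exp.2 h2.le)
  · intro s hs
    rcases L.snap_sep hu hp hact hs with h | h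
    · rw [← h]; exact le_abs.2 (Or.inl (by linarith))
    · rcases le_abs.1 h with h | h
      · exact le_abs.2 (Or.inl (by linarith))
      · exact le_abs.2 (Or.inr (by linarith))
  · intro q hq
    obtain ⟨p, rfl⟩ : ∃ p', p = p' + 1 := ⟨p - 1, by omega⟩
    have h3 := hu.2 p (p + 1) (by omega) hp
    have h4 := hu.2 q p (by omega) (by omega)
    rcases L.snap_sep hu hp hact (L.tie_mem hp u) with h | h
    · exact absurd h.symm (hnt p rfl)
    · rw [abs_of_nonpos (by linarith)] at h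
      linarith

theorem error_le (hu : L.Allowed u) (hξ : ∀ q < d, 0 < ξ q)
    (hξa : ∀ i j, i ≤ j → j < d → ξ j ≤ ξ i)
    (hmax : ∀ v, L.Allowed v → dot d v ξ - L.cost v ≤ dot d u ξ - L.cost u) :
    ∀ p < d, |log (ξ p) - u p| ≤ 2 * (L.m * L.Λ ^ (L.e (p + 1) u)) := by
  have key : ∀ p < d, (∀ q, q + 1 = p → |log (ξ q) - u q| ≤ 2 * (L.m * L.Λ ^ (L.e (q + 1) u))) →
      |log (ξ p) - u p| ≤ 2 * (L.m * L.Λ ^ (L.e (p + 1) u)) := by
    intro p hp ih
    have hlow := L.lower hu hξ hξa hmax hp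
    have hx := hξ p hp
    have hm := L.m_pos
    have hlow' : log (L.ψ p u) ≤ L.m + log (ξ p) := by
      have := log_le_log (L.ψ_pos p u) hlow
      rwa [log_mul (exp_pos _).ne' hx.ne', log_exp] at this
    have h1Λ : 1 ≤ L.Λ ^ (L.e (p + 1) u) := one_le_pow₀ L.one_le_Λ
    by_cases hact : u p ∈ L.S p u
    · have hr : L.r p u = L.m * L.Λ ^ (L.e (p + 1) u) := by
        rw [L.e_succ_of_mem hact]; rfl
      have hmr := L.m_le_r p u
      rw [← hr]
      have hψ : log (L.ψ p u) = u p - L.r p u := by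
        unfold ψ; rw [if_pos hact, log_exp]
      rw [abs_le]
      refine ⟨by linarith, ?_⟩
      by_cases hnt : ∀ q, q + 1 = p → u q ≠ u p
      · have := L.upper_active hu hξ hmax hp hact hnt
        have h2 := (log_le_iff_le_exp hx).2 this
        linarith
      · push Not at hnt
        obtain ⟨q, hq, h2⟩ := hnt
        have h3 := (abs_le.1 (ih q hq)).2
        have h4 := log_le_log hx (hξa q p (by omega) hp)
        have h5 : L.Λ ^ (L.e (q + 1) u) ≤ L.Λ ^ (L.e (p + 1) u) :=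
          pow_le_pow_right₀ L.one_le_Λ (L.e_mono u (by omega))
        rw [hr]
        nlinarith
    · have hψ : log (L.ψ p u) = u p := by
        unfold ψ; rw [if_neg hact, log_exp, sub_zero]
      have := L.upper_inactive hu hξ hmax hp hact
      have h2 := (log_le_iff_le_exp hx).2 this
      rw [abs_le]
      constructor <;> nlinarith
  intro p
  induction p with
  | zero => intro hp; exact key 0 hp (fun q hq => by omega)
  | succ p ih =>
    intro hp
    apply key (p + 1) hp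
    intro q hq
    rw [show q = p by omega]
    exact ih (by omega)

theorem error_le' (hu : L.Allowed u) (hξ : ∀ q < d, 0 < ξ q)
    (hξa : ∀ i j, i ≤ j → j < d → ξ j ≤ ξ i)
    (hmax : ∀ v, L.Allowed v → dot d v ξ - L.cost v ≤ dot d u ξ - L.cost u) :
    ∀ p < d, |log (ξ p) - u p| ≤ 2 * (L.m * L.Λ ^ (L.e d u)) := by
  intro p hp
  refine (L.error_le hu hξ hξa hmax p hp).trans ?_
  have h5 : L.Λ ^ (L.e (p + 1) u) ≤ L.Λ ^ (L.e d u) :=
    pow_le_pow_right₀ L.one_le_Λ (L.e_mono u (by omega))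
  have := L.m_pos
  nlinarith

theorem sign (hu : L.Allowed u) (hξ : ∀ q < d, 0 < ξ q)
    (hξa : ∀ i j, i ≤ j → j < d → ξ j ≤ ξ i)
    (hmax : ∀ v, L.Allowed v → dot d v ξ - L.cost v ≤ dot d u ξ - L.cost u)
    {c : ℕ → ℝ} (hc : c ∈ L.A d) (hN : 2 * ∑ q ∈ range d, |c q| + 1 ≤ L.μ ^ d * L.Λ)
    (hpos : 0 < dot d c u) : L.m ≤ dot d c (fun q => log (ξ q)) := by
  have h1 := (L.gap hu d le_rfl c hc).resolve_left hpos.ne'
  rw [abs_of_pos hpos] at h1
  have h2 := L.error_le' hu hξ hξa hmax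
  set E := L.m * L.Λ ^ (L.e d u) with hE
  have hm := L.m_pos
  have hE1 : L.m ≤ E := by
    have : 1 ≤ L.Λ ^ (L.e d u) := one_le_pow₀ L.one_le_Λ
    rw [hE]; nlinarith
  have h3 : L.G d u = L.μ ^ d * L.Λ * E := by
    unfold G; rw [hE, Nat.sub_self, pow_zero, pow_succ]; ring
  have h4 : dot d c u - dot d c (fun q => log (ξ q)) ≤ (∑ q ∈ range d, |c q|) * (2 * E) := by
    unfold dot
    rw [← sum_sub_distrib, sum_mul]
    apply sum_le_sum
    intro q hq
    have h5 := h2 q (mem_range.1 hq)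
    calc c q * u q - c q * log (ξ q) = c q * (u q - log (ξ q)) := by ring
      _ ≤ |c q * (u q - log (ξ q))| := le_abs_self _
      _ = |c q| * |log (ξ q) - u q| := by rw [abs_mul, abs_sub_comm]
      _ ≤ _ := mul_le_mul_of_nonneg_left h5 (abs_nonneg _)
  have h6 : (2 * ∑ q ∈ range d, |c q| + 1) * E ≤ L.μ ^ d * L.Λ * E :=
    mul_le_mul_of_nonneg_right hN (by linarith)
  nlinarith

/-- local finiteness -/
theorem finite_heads (M : ℝ) : ∀ p ≤ d,
    {h : ℕ → ℝ | ∃ u, L.Allowed u ∧ (∀ q < d, |u q| ≤ M) ∧ h = tail p u 0}.Finite := by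
  intro p
  induction p with
  | zero =>
    intro _
    apply (Set.finite_singleton (fun _ => (0 : ℝ))).subset
    rintro h ⟨u, -, -, rfl⟩
    funext q
    exact tail_ge (Nat.zero_le q)
  | succ p ih =>
    intro hp
    have h1 := ih (by omega)
    have hZ : (((↑) : ℤ → ℝ) '' Set.Icc (-⌈M⌉) ⌈M⌉).Finite := (Set.finite_Icc _ _).image _
    have h2 := h1.biUnion (t := fun h => (fun t => Function.update h p t) ''
      ((L.S p h : Set ℝ) ∪ ((↑) : ℤ → ℝ) '' Set.Icc (-⌈M⌉) ⌈M⌉))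
      (fun h _ => ((L.S p h).finite_toSet.union hZ).image _)
    apply h2.subset
    rintro h ⟨u, hu, hM, rfl⟩
    simp only [Set.mem_iUnion]
    refine ⟨tail p u 0, ⟨u, hu, hM, rfl⟩, u p, ?_, ?_⟩
    · rcases hu.1 p (by omega) with h | ⟨⟨n, hn⟩, -⟩
      · left
        rw [L.S_congr (v := u) fun q hq => tail_lt hq]
        exact h
      · right
        have h3 := abs_le.1 (hM p (by omega))
        have h4 := Int.le_ceil M
        refine ⟨n, ⟨?_, ?_⟩, hn.symm⟩
        · have : ((-⌈M⌉ : ℤ) : ℝ) ≤ n := by push_cast; linarith [h3.1]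
          exact_mod_cast this
        · have : (n : ℝ) ≤ ((⌈M⌉ : ℤ) : ℝ) := by linarith [h3.2]
          exact_mod_cast this
    · funext q
      by_cases h : q = p
      · subst h
        simp [tail]
      · beta_reduce
        rw [Function.update_of_ne h]
        unfold tail
        by_cases h' : q < p
        · rw [if_pos h', if_pos (by omega)]
        · rw [if_neg h', if_neg (by omega)]

end Ladder

end Crest.Agent.R92
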